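import Mathlib

/-!
Irreducible star representations on Hilbert spaces: Schur's lemma and density.
-/

set_option autoImplicit false
set_option linter.unusedSectionVars false

noncomputable section

namespace Crest.Agent.R120

open Filter Topology
open scoped InnerProductSpace

variable {R : Type*} [Ring R] [StarRing R] [Algebra ℂ R] [StarModule ℂ R]
variable {H : Type*} [NormedAddCommGroup H] [InnerProductSpace ℂ H] [CompleteSpace H]

/-- no nontrivial closed invariant subspace -/
def Irr (ρ : R →⋆ₐ[ℂ] (H →L[ℂ] H)) : Prop :=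
  ∀ V : Submodule ℂ H, IsClosed (V : Set H) → (∀ a : R, ∀ v ∈ V, ρ a v ∈ V) → V = ⊥ ∨ V = ⊤

theorem schur_sa {ρ : R →⋆ₐ[ℂ] (H →L[ℂ] H)} (hρ : Irr ρ) (T : H →L[ℂ] H)
    (hT : IsSelfAdjoint T) (hc : ∀ a, Commute T (ρ a)) : ∃ c : ℂ, T = c • (1 : H →L[ℂ] H) := by
  have key : ∀ s ∈ spectrum ℝ T, ∀ t ∈ spectrum ℝ T, ¬ s < t := by
    intro s hs t ht hst
    set m := (s + t) / 2 with hm
    let g : ℝ → ℝ := fun x => max (x - m) 0
    let h : ℝ → ℝ := fun x => max (m - x) 0
    have hg : Continuous g := by fun_prop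
    have hh : Continuous h := by fun_prop
    have hgh : cfc g T * cfc h T = 0 := by
      rw [← cfc_mul g h T hg.continuousOn hh.continuousOn]
      have : (fun x => g x * h x) = fun _ => (0 : ℝ) := by
        funext x
        rcases le_total x m with hx | hx
        · simp [g, max_eq_right (sub_nonpos.2 hx)]
        · simp [h, max_eq_right (sub_nonpos.2 hx)]
      rw [this]
      exact cfc_const_zero ℝ T
    have hg0 : cfc g T ≠ 0 := by
      intro h0
      have h1 : cfc g T = cfc (fun _ => (0 : ℝ)) T := by rw [h0, cfc_const_zero]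
      have h2 := eqOn_of_cfc_eq_cfc h1 hg.continuousOn continuousOn_const hT ht
      have h3 : 0 < t - m := by rw [hm]; linarith
      simp only [g, max_eq_left h3.le] at h2
      linarith
    have hh0 : cfc h T ≠ 0 := by
      intro h0
      have h1 : cfc h T = cfc (fun _ => (0 : ℝ)) T := by rw [h0, cfc_const_zero]
      have h2 := eqOn_of_cfc_eq_cfc h1 hh.continuousOn continuousOn_const hT hs
      have h3 : 0 < m - s := by rw [hm]; linarith
      simp only [h, max_eq_left h3.le] at h2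
      linarith
    rcases hρ (LinearMap.ker (cfc g T : H →L[ℂ] H).toLinearMap)
      (ContinuousLinearMap.isClosed_ker _) (by
        intro a v hv
        have h1 := ((hc a).cfc_real g).eq
        have h2 : cfc g T v = 0 := hv
        change (cfc g T * ρ a) v = 0
        rw [h1]
        change ρ a (cfc g T v) = 0
        rw [h2, map_zero]) with h1 | h1
    · apply hh0
      ext v
      have h2 : cfc h T v ∈ LinearMap.ker (cfc g T : H →L[ℂ] H).toLinearMap := by
        change (cfc g T * cfc h T) v = 0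
        rw [hgh]; rfl
      rw [h1] at h2
      simpa using h2
    · apply hg0
      ext v
      have h2 : v ∈ LinearMap.ker (cfc g T : H →L[ℂ] H).toLinearMap := by
        rw [h1]; trivial
      simpa using h2
  by_cases hne : (spectrum ℝ T).Nonempty
  · obtain ⟨s, hs⟩ := hne
    refine ⟨s, ?_⟩
    have := CFC.eq_algebraMap_of_spectrum_subset_singleton T s (fun t ht =>
      le_antisymm (not_lt.1 (key s hs t ht)) (not_lt.1 (key t ht s hs))) hT
    rw [this, Algebra.algebraMap_eq_smul_one]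
    ext v
    simp
  · refine ⟨0, ?_⟩
    have := CFC.eq_algebraMap_of_spectrum_subset_singleton T (0 : ℝ) (fun t ht =>
      (hne ⟨t, ht⟩).elim) hT
    rw [this]; simp

theorem schur {ρ : R →⋆ₐ[ℂ] (H →L[ℂ] H)} (hρ : Irr ρ) (T : H →L[ℂ] H)
    (hc : ∀ a, Commute T (ρ a)) : ∃ c : ℂ, T = c • (1 : H →L[ℂ] H) := by
  have hc' : ∀ a, Commute (star T) (ρ a) := by
    intro a
    have := (hc (star a)).star_star
    rwa [← map_star, star_star] at this
  obtain ⟨c, h1⟩ := schur_sa hρ (T + star T) (IsSelfAdjoint.add_star_self T)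
    (fun a => (hc a).add_left (hc' a))
  obtain ⟨d, h2⟩ := schur_sa hρ (Complex.I • (T - star T)) (by
      simp only [IsSelfAdjoint, star_smul, star_sub, star_star, Complex.star_def, Complex.conj_I]
      rw [neg_smul, ← smul_neg, neg_sub])
    (fun a => ((hc a).sub_left (hc' a)).smul_left _)
  refine ⟨(c - Complex.I * d) / 2, ?_⟩
  have h3 : (2 : ℂ) • T = (T + star T) - Complex.I • (Complex.I • (T - star T)) := by
    rw [smul_smul, Complex.I_mul_I]
    module
  rw [h1, h2, smul_smul, ← sub_smul] at h3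
  calc T = (1 / 2 : ℂ) • ((2 : ℂ) • T) := by rw [smul_smul]; simp
    _ = _ := by rw [h3, smul_smul]; congr 1; ring

section dens

variable {ι : Type*} [Fintype ι] [DecidableEq ι]

/-- diagonal operator -/
def diagOp (T : H →L[ℂ] H) : PiLp 2 (fun _ : ι => H) →L[ℂ] PiLp 2 (fun _ : ι => H) :=
  (PiLp.continuousLinearEquiv 2 ℂ (fun _ : ι => H)).symm.toContinuousLinearMap ∘L
    ContinuousLinearMap.pi fun i => T ∘L PiLp.proj 2 (fun _ : ι => H) i

@[simp] theorem diagOp_apply (T : H →L[ℂ] H) (x : PiLp 2 (fun _ : ι => H)) (i : ι) :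
    diagOp T x i = T (x i) := rfl

/-- coordinate inclusion -/
def inc (j : ι) : H →L[ℂ] PiLp 2 (fun _ : ι => H) :=
  (PiLp.continuousLinearEquiv 2 ℂ (fun _ : ι => H)).symm.toContinuousLinearMap ∘L
    ContinuousLinearMap.single ℂ (fun _ : ι => H) j

theorem inc_apply (j : ι) (v : H) (i : ι) :
    (inc j v : PiLp 2 (fun _ : ι => H)) i = if i = j then v else 0 := by
  change (Pi.single j v : ι → H) i = _
  rw [Pi.single_apply]

theorem sum_inc (x : PiLp 2 (fun _ : ι => H)) : ∑ j, inc j (x j) = x := by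
  ext i
  simp [inc_apply]

theorem maps_closure {E : Type*} [NormedAddCommGroup E] [NormedSpace ℂ E] (S : Submodule ℂ E)
    (T : E →L[ℂ] E) (h : ∀ y ∈ S, T y ∈ S.topologicalClosure) :
    ∀ y ∈ S.topologicalClosure, T y ∈ S.topologicalClosure := by
  intro y hy
  have h1 : IsClosed (T ⁻¹' (S.topologicalClosure : Set E)) :=
    (Submodule.isClosed_topologicalClosure _).preimage T.continuous
  exact closure_minimal (fun y hy => h y hy) h1 hy

theorem inner_diagOp (T : H →L[ℂ] H) (x y : PiLp 2 (fun _ : ι => H)) :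
    ⟪diagOp T x, y⟫_ℂ = ⟪x, diagOp (star T) y⟫_ℂ := by
  simp only [PiLp.inner_apply, diagOp_apply, ContinuousLinearMap.star_eq_adjoint,
    ContinuousLinearMap.adjoint_inner_right]

theorem dens {ρ : R →⋆ₐ[ℂ] (H →L[ℂ] H)} (hρ : Irr ρ) (x z : ι → H)
    (h : ∀ a, ∑ i, ⟪z i, ρ a (x i)⟫_ℂ = 0) (T : H →L[ℂ] H) : ∑ i, ⟪z i, T (x i)⟫_ℂ = 0 := by
  let x' : PiLp 2 (fun _ : ι => H) := WithLp.toLp 2 x
  let z' : PiLp 2 (fun _ : ι => H) := WithLp.toLp 2 z
  let φ : R →ₗ[ℂ] PiLp 2 (fun _ : ι => H) :=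
    { toFun := fun a => diagOp (ρ a) x'
      map_add' := fun a b => by ext i; simp
      map_smul' := fun c a => by ext i; simp }
  let K : Submodule ℂ (PiLp 2 (fun _ : ι => H)) := (LinearMap.range φ).topologicalClosure
  have : CompleteSpace K := (Submodule.isClosed_topologicalClosure _).completeSpace_coe
  have hK : ∀ a, ∀ y ∈ K, diagOp (ρ a) y ∈ K := by
    intro a
    refine maps_closure _ _ ?_
    rintro _ ⟨b, rfl⟩
    refine Submodule.le_topologicalClosure _ ⟨a * b, ?_⟩
    ext i
    simp [φ]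
  have hKo : ∀ a, ∀ y ∈ Kᗮ, diagOp (ρ a) y ∈ Kᗮ := by
    intro a y hy
    rw [Submodule.mem_orthogonal'] at hy ⊢
    intro u hu
    rw [inner_diagOp, ← map_star]
    exact hy _ (hK _ _ hu)
  have hP : ∀ a y, K.starProjection (diagOp (ρ a) y) = diagOp (ρ a) (K.starProjection y) := by
    intro a y
    refine Submodule.eq_starProjection_of_mem_orthogonal (hK a _ (K.starProjection_apply_mem y)) ?_
    rw [← map_sub]
    exact hKo a _ (K.sub_starProjection_mem_orthogonal y)
  have hs : ∀ i j, ∃ c : ℂ, ∀ v, K.starProjection (inc j v) i = c • v := by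
    intro i j
    obtain ⟨c, hc⟩ := schur hρ (PiLp.proj 2 (fun _ : ι => H) i ∘L K.starProjection ∘L inc j) (by
      intro a
      ext v
      have h1 : inc j (ρ a v) = diagOp (ρ a) (inc j v : PiLp 2 (fun _ : ι => H)) := by
        ext k
        simp only [inc_apply, diagOp_apply]
        split_ifs <;> simp
      change K.starProjection (inc j (ρ a v)) i = ρ a (K.starProjection (inc j v) i)
      rw [h1, hP, diagOp_apply])
    exact ⟨c, fun v => by simpa using congrArg (fun S : H →L[ℂ] H => S v) hc⟩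
  choose p hp using hs
  have hP' : ∀ y i, K.starProjection y i = ∑ j, p i j • y j := by
    intro y i
    conv_lhs => rw [← sum_inc y, map_sum]
    simp [hp]
  have hT : ∀ y, K.starProjection (diagOp T y) = diagOp T (K.starProjection y) := by
    intro y
    ext i
    simp [hP']
  have hx : x' ∈ K := Submodule.le_topologicalClosure _ ⟨1, by ext i; simp [φ]⟩
  have hz : z' ∈ Kᗮ := by
    rw [Submodule.orthogonal_closure, Submodule.mem_orthogonal']
    rintro _ ⟨a, rfl⟩
    simpa [PiLp.inner_apply, φ, x', z'] using h a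
  have h1 : diagOp T x' ∈ K := by
    rw [← Submodule.starProjection_eq_self_iff, hT, Submodule.starProjection_eq_self_iff.2 hx]
  have h2 := (Submodule.mem_orthogonal' _ _).1 hz _ h1
  simpa [PiLp.inner_apply, x', z'] using h2

theorem star_dens {ρ : R →⋆ₐ[ℂ] (H →L[ℂ] H)} (hρ : Irr ρ) (η ζ : ι → H) (V : H →L[ℂ] H)
    {ε : ℝ} (hε : 0 < ε) :
    ∃ a : R, ∀ i, ‖ρ a (η i) - V (η i)‖ < ε ∧ ‖ρ (star a) (ζ i) - star V (ζ i)‖ < ε := by
  let φ : R → (ι ⊕ ι → H) := fun a => Sum.elim (fun i => ρ a (η i)) (fun i => ρ (star a) (ζ i))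
  let y : ι ⊕ ι → H := Sum.elim (fun i => V (η i)) (fun i => star V (ζ i))
  have hsm : ∀ (t : ℝ) a, φ ((t : ℂ) • a) = t • φ a := by
    intro t a
    rw [← Complex.coe_smul]
    funext i
    rcases i with i | i
    · simp only [φ, Sum.elim_inl, map_smul, smul_apply, Pi.smul_apply]
    · simp only [φ, Sum.elim_inr, star_smul, Complex.star_def, Complex.conj_ofReal, map_smul,
        smul_apply, Pi.smul_apply]
  have hadd : ∀ a b, φ (a + b) = φ a + φ b := by
    intro a b
    funext i
    rcases i with i | i <;> simp [φ]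
  have hconv : Convex ℝ (Set.range φ) := by
    rintro _ ⟨a, rfl⟩ _ ⟨b, rfl⟩ s t - - -
    exact ⟨(s : ℂ) • a + (t : ℂ) • b, by rw [hadd, hsm, hsm]⟩
  have hy : y ∈ closure (Set.range φ) := by
    by_contra hy
    obtain ⟨f, u, hu, hf⟩ := RCLike.geometric_hahn_banach_point_closed (𝕜 := ℂ)
      hconv.closure isClosed_closure hy
    have h0 : ∀ a, (f (φ a)).re = 0 := by
      intro a
      by_contra h0
      have h1 := hf _ (subset_closure ⟨(((u - 1) / (f (φ a)).re : ℝ) : ℂ) • a, rfl⟩)
      rw [hsm, ← Complex.coe_smul, map_smul, smul_eq_mul] at h1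
      simp only [RCLike.re_to_complex, Complex.re_ofReal_mul] at h1
      rw [div_mul_cancel₀ _ h0] at h1
      linarith
    have hu0 : u < 0 := by
      have := hf _ (subset_closure ⟨0, rfl⟩)
      simpa [h0 0] using this
    let z : ι ⊕ ι → H := fun i => (InnerProductSpace.toDual ℂ H).symm
      (f ∘L ContinuousLinearMap.single ℂ (fun _ : ι ⊕ ι => H) i)
    have hz : ∀ w : ι ⊕ ι → H, f w = ∑ i, ⟪z i, w i⟫_ℂ := by
      intro w
      conv_lhs => rw [← Finset.univ_sum_single w, map_sum]
      refine Finset.sum_congr rfl fun i _ => ?_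
      simp [z]
    -- the complex linear functional
    have hre : ∀ S : H →L[ℂ] H,
        (∑ i, ⟪Sum.elim (fun i => z (Sum.inl i)) ζ i,
          S (Sum.elim η (fun i => z (Sum.inr i)) i)⟫_ℂ).re =
        (f (Sum.elim (fun i => S (η i)) (fun i => star S (ζ i)))).re := by
      intro S
      rw [hz]
      simp only [Fintype.sum_sum_type, Sum.elim_inl, Sum.elim_inr, Complex.add_re, Complex.re_sum]
      congr 1
      refine Finset.sum_congr rfl fun i _ => ?_
      rw [ContinuousLinearMap.star_eq_adjoint, ContinuousLinearMap.adjoint_inner_right,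
        ← inner_conj_symm, Complex.conj_re]
    have hlin : ∀ a, ∑ i, ⟪Sum.elim (fun i => z (Sum.inl i)) ζ i,
          ρ a (Sum.elim η (fun i => z (Sum.inr i)) i)⟫_ℂ = 0 := by
      intro a
      apply Complex.ext
      · rw [hre, ← map_star]
        exact h0 a
      · have h1 := hre (ρ (Complex.I • a))
        rw [← map_star] at h1
        have h2 := h0 (Complex.I • a)
        simp only [φ] at h2
        rw [h2] at h1
        simp only [map_smul, smul_apply, inner_smul_right,
          ← Finset.mul_sum, Complex.mul_re, Complex.I_re, Complex.I_im] at h1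
        simp only [Complex.zero_im]
        linarith
    have h3 := hre V
    rw [dens hρ _ _ hlin V] at h3
    simp only [RCLike.re_to_complex] at hu
    simp only [Complex.zero_re] at h3
    have : (f y).re = 0 := h3.symm
    linarith
  obtain ⟨_, ⟨a, rfl⟩, ha⟩ := Metric.mem_closure_iff.1 hy ε hε
  refine ⟨a, fun i => ⟨?_, ?_⟩⟩
  · have := (dist_pi_lt_iff hε).1 ha (Sum.inl i)
    rwa [dist_comm, dist_eq_norm] at this
  · have := (dist_pi_lt_iff hε).1 ha (Sum.inr i)
    rwa [dist_comm, dist_eq_norm] at this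

theorem exists_parseval (η : ι → H) :
    ∃ b : ι → H, ∀ μ, ∑ ν, ⟪b ν, η μ⟫_ℂ • b ν = η μ := by
  let F : Submodule ℂ H := Submodule.span ℂ (Set.range η)
  have : FiniteDimensional ℂ F := FiniteDimensional.span_of_finite ℂ (Set.finite_range η)
  have hle : Fintype.card (Fin (Module.finrank ℂ F)) ≤ Fintype.card ι := by
    rw [Fintype.card_fin]
    exact finrank_range_le_card η
  obtain ⟨σ⟩ := Function.Embedding.nonempty_of_card_le hle
  let B := stdOrthonormalBasis ℂ F
  refine ⟨Function.extend σ (fun j => (B j : H)) 0, fun μ => ?_⟩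
  have h1 := congrArg (fun v : F => (v : H))
    (B.sum_repr' ⟨η μ, Submodule.subset_span ⟨μ, rfl⟩⟩)
  simp only [AddSubmonoidClass.coe_finset_sum, SetLike.val_smul, Submodule.coe_inner] at h1
  rw [← h1]
  symm
  refine Finset.sum_of_injOn σ σ.injective.injOn (fun _ _ => Finset.mem_univ _) ?_ ?_
  · intro i _ hi
    rw [Function.extend_apply']
    · simp
    · rintro ⟨j, rfl⟩
      exact hi ⟨j, by simp, rfl⟩
  · intro j _
    rw [σ.injective.extend_apply, h1]

end dens

theorem dec_proj (P : ℕ → H →L[ℂ] H) (hsa : ∀ n, star (P n) = P n)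
    (hP : ∀ m n, n ≤ m → P m * P n = P m) (y : H) :
    ∃ z, Tendsto (fun n => P n y) atTop (𝓝 z) ∧ ∀ n, P n z = z := by
  have hP' : ∀ m n, n ≤ m → P n * P m = P m := by
    intro m n h
    have := congrArg star (hP m n h)
    rwa [star_mul, hsa, hsa] at this
  have hin : ∀ m n, n ≤ m → ⟪P n y, P m y⟫_ℂ = ⟪P m y, P m y⟫_ℂ := by
    intro m n h
    have h1 : ∀ n, n ≤ m → ⟪P n y, P m y⟫_ℂ = ⟪y, P m y⟫_ℂ := by
      intro n h
      rw [← hsa n, ContinuousLinearMap.star_eq_adjoint, ContinuousLinearMap.adjoint_inner_left]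
      change ⟪y, (P n * P m) y⟫_ℂ = _
      rw [hP' m n h]
    rw [h1 n h, h1 m le_rfl]
  have hsq : ∀ m n, n ≤ m → ‖P n y - P m y‖ ^ 2 = ‖P n y‖ ^ 2 - ‖P m y‖ ^ 2 := by
    intro m n h
    rw [@norm_sub_sq ℂ, hin m n h, inner_self_eq_norm_sq]
    ring
  have hanti : Antitone fun n => ‖P n y‖ ^ 2 := by
    intro n m h
    have := hsq m n h
    have h2 := sq_nonneg ‖P n y - P m y‖
    simp only
    linarith
  have hconv : CauchySeq fun n => ‖P n y‖ ^ 2 :=
    (tendsto_atTop_ciInf hanti ⟨0, by rintro _ ⟨n, rfl⟩; positivity⟩).cauchySeq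
  have hc : CauchySeq fun n => P n y := by
    rw [Metric.cauchySeq_iff'] at hconv ⊢
    intro ε hε
    obtain ⟨N, hN⟩ := hconv (ε ^ 2) (by positivity)
    refine ⟨N, fun n hn => ?_⟩
    have h1 := hN n hn
    rw [dist_comm, Real.dist_eq, ← hsq n N hn, abs_of_nonneg (by positivity)] at h1
    rw [dist_comm, dist_eq_norm]
    exact lt_of_pow_lt_pow_left₀ 2 hε.le h1
  obtain ⟨z, hz⟩ := cauchySeq_tendsto_of_complete hc
  refine ⟨z, hz, fun n => ?_⟩
  have h1 : Tendsto (fun m => P n (P m y)) atTop (𝓝 (P n z)) :=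
    ((P n).continuous.tendsto z).comp hz
  refine tendsto_nhds_unique h1 (hz.congr' ?_)
  filter_upwards [eventually_ge_atTop n] with m hm
  change P m y = (P n * P m) y
  rw [hP' m n hm]

theorem Irr.denseRange {ρ : R →⋆ₐ[ℂ] (H →L[ℂ] H)} (hρ : Irr ρ) {ξ : H} (hξ : ξ ≠ 0) :
    DenseRange fun a => ρ a ξ := by
  let φ : R →ₗ[ℂ] H :=
    { toFun := fun a => ρ a ξ
      map_add' := fun a b => by simp
      map_smul' := fun c a => by simp }
  rcases hρ (LinearMap.range φ).topologicalClosure (Submodule.isClosed_topologicalClosure _) (by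
    intro a
    refine maps_closure _ _ ?_
    rintro _ ⟨b, rfl⟩
    exact Submodule.le_topologicalClosure _ ⟨a * b, by simp [φ]⟩) with h | h
  · exfalso
    apply hξ
    have : ξ ∈ (LinearMap.range φ).topologicalClosure :=
      Submodule.le_topologicalClosure _ ⟨1, by simp [φ]⟩
    rwa [h] at this
  · have := Submodule.dense_iff_topologicalClosure_eq_top.2 h
    exact this

theorem unitary_of_norm_eq {H' : Type*} [NormedAddCommGroup H'] [InnerProductSpace ℂ H']
    [CompleteSpace H'] {ρ : R →⋆ₐ[ℂ] (H →L[ℂ] H)} {ρ' : R →⋆ₐ[ℂ] (H' →L[ℂ] H')}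
    (hρ : Irr ρ) (hρ' : Irr ρ') {ξ : H} {ξ' : H'} (hξ : ξ ≠ 0)
    (h : ∀ a, ‖ρ' a ξ'‖ = ‖ρ a ξ‖) :
    ∃ U : H ≃ₗᵢ[ℂ] H', ∀ a v, U (ρ a v) = ρ' a (U v) := by
  have hξ' : ξ' ≠ 0 := by
    intro h0
    have := h 1
    rw [h0] at this
    simp only [map_zero, norm_zero, map_one, ContinuousLinearMap.one_apply] at this
    exact hξ (norm_eq_zero.1 this.symm)
  let φ : R →ₗ[ℂ] H :=
    { toFun := fun a => ρ a ξ
      map_add' := fun a b => by simp
      map_smul' := fun c a => by simp }
  let φ' : R →ₗ[ℂ] H' :=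
    { toFun := fun a => ρ' a ξ'
      map_add' := fun a b => by simp
      map_smul' := fun c a => by simp }
  let U := (LinearEquiv.refl ℂ R).extendOfIsometry φ φ' (hρ.denseRange hξ) (hρ'.denseRange hξ') h
  have hU : ∀ a, U (ρ a ξ) = ρ' a ξ' := fun a =>
    (LinearEquiv.refl ℂ R).extendOfIsometry_eq φ φ' (hρ.denseRange hξ) (hρ'.denseRange hξ') h a
  refine ⟨U, fun a v => ?_⟩
  refine (hρ.denseRange hξ).induction_on v (isClosed_eq (by fun_prop) (by fun_prop)) fun b => ?_
  have := hU (a * b)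
  simp only [map_mul, ContinuousLinearMap.mul_apply] at this
  rw [this, hU]

end Crest.Agent.R120
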