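import Crest.Agent.R120.Step

/-!
Good sequences, and the existence of one with a fixed vector in every irreducible representation.
-/

set_option autoImplicit false
set_option linter.unusedSectionVars false

noncomputable section

namespace Crest.Agent.R120

open Filter Topology
open scoped InnerProductSpace

variable {H : Type*} [NormedAddCommGroup H] [InnerProductSpace ℂ H] [CompleteSpace H]
variable {D : Type} [Ring D] [StarRing D] [Algebra ℂ D] [StarModule ℂ D]

/-- an excising decreasing sequence of projections with coherent unitaries moving it to the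
base sequence -/
structure Good (U : Sys D) where
  /-- levels -/
  k : ℕ → ℕ
  /-- unitaries -/
  W : ℕ → D
  le_k : ∀ n, n ≤ k n
  mono : ∀ n, k n ≤ k (n + 1)
  unit : ∀ n, W n ∈ unitary D
  coh : ∀ n, W (n + 1) * (1 - star (W n) * U.F (k n) * W n) =
    W n * (1 - star (W n) * U.F (k n) * W n)
  exc : ∀ d, ∃ n, ∃ c : ℂ, (star (W n) * U.F (k n) * W n) * d * (star (W n) * U.F (k n) * W n) =
    c • (star (W n) * U.F (k n) * W n)

namespace Good

variable {U : Sys D} (χ : Good U)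

/-- the projections -/
def e (n : ℕ) : D := star (χ.W n) * U.F (χ.k n) * χ.W n

theorem star_e (n : ℕ) : star (χ.e n) = χ.e n := by
  rw [e, star_mul, star_mul, star_star, U.star_F, mul_assoc]

theorem W_mul_e (n : ℕ) : χ.W n * χ.e n = U.F (χ.k n) * χ.W n := by
  rw [e, ← mul_assoc, ← mul_assoc, (χ.unit n).2, one_mul]

theorem e_proj (n : ℕ) : IsStarProjection (χ.e n) := by
  refine ⟨?_, χ.star_e n⟩
  rw [IsIdempotentElem]
  conv_lhs => enter [1]; rw [e]
  rw [mul_assoc, W_mul_e, mul_assoc, ← mul_assoc (U.F _), (U.F_proj _).isIdempotentElem.eq, e,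
    mul_assoc]

theorem W_mul_one_sub (n : ℕ) : χ.W n * (1 - χ.e n) = (1 - U.F (χ.k n)) * χ.W n := by
  rw [mul_sub, sub_mul, W_mul_e, mul_one, one_mul]

theorem e_succ_mul (n : ℕ) : χ.e (n + 1) * χ.e n = χ.e (n + 1) := by
  have h1 : χ.e (n + 1) * (1 - χ.e n) = 0 := by
    have h2 : χ.W (n + 1) * (1 - χ.e n) = χ.W n * (1 - χ.e n) := χ.coh n
    conv_lhs => enter [1]; rw [e]
    rw [mul_assoc, h2, W_mul_one_sub, mul_assoc, ← mul_assoc (U.F _), mul_sub, mul_one,
      U.F_mul_F (χ.mono n), sub_self, zero_mul, mul_zero]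
  rw [mul_sub, mul_one, sub_eq_zero] at h1
  exact h1.symm

theorem e_mul_e {m n : ℕ} (h : n ≤ m) : χ.e m * χ.e n = χ.e m := by
  induction m, h using Nat.le_induction with
  | base => exact (χ.e_proj n).isIdempotentElem
  | succ m h ih => rw [← χ.e_succ_mul m, mul_assoc, ih]

theorem e_mul_e' {m n : ℕ} (h : n ≤ m) : χ.e n * χ.e m = χ.e m := by
  have := congrArg star (χ.e_mul_e h)
  rwa [star_mul, star_e, star_e] at this

theorem coh' {m n : ℕ} (h : n ≤ m) : χ.W m * (1 - χ.e n) = χ.W n * (1 - χ.e n) := by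
  induction m, h using Nat.le_induction with
  | base => rfl
  | succ m h ih =>
    have h1 : (1 - χ.e m) * (1 - χ.e n) = 1 - χ.e n := by
      rw [sub_mul, one_mul, mul_sub, mul_one, χ.e_mul_e h, sub_self, sub_zero]
    have h2 : χ.W (m + 1) * (1 - χ.e m) = χ.W m * (1 - χ.e m) := χ.coh m
    rw [← h1, ← mul_assoc, h2, mul_assoc, h1, ih]

theorem exc' (d : D) : ∃ c : ℂ, ∀ᶠ n in atTop, χ.e n * d * χ.e n = c • χ.e n := by
  obtain ⟨n, c, h⟩ := χ.exc d
  have h' : χ.e n * d * χ.e n = c • χ.e n := h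
  refine ⟨c, ?_⟩
  filter_upwards [eventually_ge_atTop n] with m hm
  calc χ.e m * d * χ.e m = χ.e m * χ.e n * d * (χ.e n * χ.e m) := by
        rw [χ.e_mul_e hm, χ.e_mul_e' hm]
    _ = χ.e m * (χ.e n * d * χ.e n) * χ.e m := by simp only [mul_assoc]
    _ = _ := by rw [h', mul_smul_comm, smul_mul_assoc, χ.e_mul_e hm, χ.e_mul_e le_rfl]

theorem tendsto_k : Tendsto χ.k atTop atTop := tendsto_atTop_mono χ.le_k tendsto_id

end Good

namespace Sys

variable (U : Sys D)

/-- the base sequence -/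
def base : Good U where
  k n := n
  W _ := 1
  le_k _ := le_rfl
  mono n := Nat.le_succ n
  unit _ := one_mem _
  coh _ := rfl
  exc d := by
    obtain ⟨k, a, rfl⟩ := U.exh d
    refine ⟨k, a (o k) (o k), ?_⟩
    simp only [star_one, one_mul, mul_one]
    exact U.F_conj k a

theorem base_e (n : ℕ) : U.base.e n = U.F n := by
  simp [Good.e, base]

theorem key [Nontrivial H] {ρ : D →⋆ₐ[ℂ] (H →L[ℂ] H)} (hρ : Irr ρ) :
    ∃ χ : Good U, ∃ ξ : H, ξ ≠ 0 ∧ ∀ n, ρ (χ.e n) ξ = ξ := by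
  obtain ⟨ξ, hξ1, hξ⟩ := U.exists_fixed ρ 0
  let S : ℕ → Type := fun n => {p : ℕ × D // p.2 ∈ unitary D ∧ n ≤ p.1 ∧
    1 / 2 + (1 / 2 : ℝ) ^ (n + 1) ≤ ‖ρ (U.F p.1) (ρ p.2 ξ)‖}
  have hstep : ∀ n (p : S n), ∃ q : S (n + 1), p.1.1 ≤ q.1.1 ∧
      q.1.2 * (1 - star p.1.2 * U.F p.1.1 * p.1.2) =
        p.1.2 * (1 - star p.1.2 * U.F p.1.1 * p.1.2) ∧
      ∀ a : A n, ∃ c : ℂ, (star q.1.2 * U.F q.1.1 * q.1.2) * U.ι n a *
        (star q.1.2 * U.F q.1.1 * q.1.2) = c • (star q.1.2 * U.F q.1.1 * q.1.2) := by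
    rintro n ⟨⟨k, W⟩, hW, hk, hnorm⟩
    simp only at hW hk hnorm ⊢
    obtain ⟨l, hl, W₀, hW₀⟩ := U.exh_ge W k
    set ζ := ρ (U.F k) (ρ W ξ) with hζ
    have hζpos : 0 < ‖ζ‖ := lt_of_lt_of_le (by positivity) hnorm
    have hζ0 : ζ ≠ 0 := norm_pos_iff.1 hζpos
    have hζ1 : ‖ζ‖ ≤ 1 := by
      refine (norm_apply_le_of_proj' ρ (U.F_proj k) _).trans ?_
      rw [ContinuousLinearMap.norm_map_of_mem_unitary (Unitary.map_mem ρ hW), hξ1]
    have hfix : ρ (U.F k) ζ = ζ := by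
      rw [hζ, ← rep_mul, (U.F_proj k).isIdempotentElem.eq]
    obtain ⟨w, hw, h1, h2, h3⟩ := U.step hρ hl ((‖ζ‖⁻¹ : ℂ) • ζ) (norm_smul_inv_norm hζ0)
      (by rw [map_smul, hfix]) (ε := (1 / 2 : ℝ) ^ (n + 2)) (by positivity)
    refine ⟨⟨(l + 1, w * W), mul_mem hw hW, by simp only; omega, ?_⟩, by simp only; omega, ?_, ?_⟩
    · simp only
      have e1 : U.F (l + 1) * w = U.F (l + 1) * w * U.F k := by
        have : U.F (l + 1) * (w * (1 - U.F k)) = 0 := by
          rw [h1, mul_sub, mul_one, U.F_mul_F (by omega), sub_self]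
        rw [mul_sub, mul_one, mul_sub, sub_eq_zero] at this
        rw [mul_assoc, ← this]
      have e2 : ρ (U.F (l + 1)) (ρ (w * W) ξ) = ρ (U.F (l + 1)) (ρ w ζ) := by
        rw [rep_mul, ← rep_mul ρ _ w, e1, rep_mul, rep_mul]
      rw [e2]
      rw [map_smul, map_smul, ← smul_sub, norm_smul, norm_inv, Complex.norm_real, norm_norm,
        inv_mul_le_iff₀ hζpos] at h3
      have e3 : ‖ρ w ζ‖ = ‖ζ‖ := ContinuousLinearMap.norm_map_of_mem_unitary
        (Unitary.map_mem ρ hw) _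
      have e4 := norm_sub_norm_le (ρ w ζ) (ρ (U.F (l + 1)) (ρ w ζ))
      rw [norm_sub_rev, e3] at e4
      have e5 : ‖ζ‖ * (1 / 2 : ℝ) ^ (n + 2) ≤ (1 / 2 : ℝ) ^ (n + 2) :=
        mul_le_of_le_one_left (by positivity) hζ1
      have e6 : (1 / 2 : ℝ) ^ (n + 1) = 2 * (1 / 2 : ℝ) ^ (n + 2) := by ring
      linarith
    · simp only
      have e1 : W * (1 - star W * U.F k * W) = (1 - U.F k) * W := by
        rw [mul_sub, sub_mul, ← mul_assoc, ← mul_assoc, hW.2, one_mul, mul_one, one_mul]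
      rw [mul_assoc, e1, ← mul_assoc, h1]
    · intro a
      simp only
      obtain ⟨c, hc⟩ := h2 (W₀ * embLE (hk.trans hl) a * star W₀)
      refine ⟨c, ?_⟩
      rw [map_mul, map_mul, map_star, hW₀, U.ι_embLE] at hc
      have := congrArg (fun x => star (w * W) * x * (w * W)) hc
      simp only [mul_smul_comm, smul_mul_assoc, star_mul, mul_assoc] at this ⊢
      exact this
  choose nxt hn1 hn2 hn3 using hstep
  let p : ∀ n, S n := fun n => Nat.rec ⟨(0, 1), one_mem _, le_rfl, by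
    simp only [map_one, one_apply_eq_self, hξ, hξ1]; norm_num⟩ nxt n
  have hp : ∀ n, p (n + 1) = nxt n (p n) := fun n => rfl
  let χ : Good U :=
    { k := fun n => (p n).1.1
      W := fun n => (p n).1.2
      le_k := fun n => (p n).2.2.1
      mono := fun n => hn1 n (p n)
      unit := fun n => (p n).2.1
      coh := fun n => hn2 n (p n)
      exc := fun d => by
        obtain ⟨n, a, rfl⟩ := U.exh d
        exact ⟨n + 1, hn3 n (p n) a⟩ }
  obtain ⟨z, hz, hz'⟩ := dec_proj (fun n => ρ (χ.e n)) (fun n => by rw [← map_star, χ.star_e])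
    (fun m n h => by rw [← map_mul, χ.e_mul_e h]) ξ
  refine ⟨χ, z, ?_, hz'⟩
  have h1 : 1 / 2 ≤ ‖z‖ := by
    refine ge_of_tendsto' hz.norm fun n => ?_
    have h2 := (p n).2.2.2
    rw [Good.e, mul_assoc, rep_mul, ContinuousLinearMap.norm_map_of_mem_unitary
      (Unitary.map_mem ρ (Unitary.star_mem (χ.unit n))), rep_mul]
    refine le_trans ?_ h2
    have : (0 : ℝ) < (1 / 2 : ℝ) ^ (n + 1) := by positivity
    linarith
  intro h
  rw [h, norm_zero] at h1
  norm_num at h1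

end Sys

end Crest.Agent.R120
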