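import Crest.Agent.R120.Simple

/-!
Construction of the algebra.
-/

set_option autoImplicit false
set_option linter.unusedSectionVars false

noncomputable section

namespace Crest.Agent.R120

open Filter Topology
open scoped ENNReal ComplexOrder

open scoped Matrix.Norms.L2Operator in
theorem exists_tower : ∃ (M : Type) (_ : CStarAlgebra M) (σ : M →ₗ[ℂ] ℂ)
    (ι : ∀ k, A k →⋆ₐ[ℂ] M), TrSt σ ∧ ∀ k a, ι (k + 1) (emb k a) = ι k a := by
  let τ : ∀ n, A n →ₗ[ℂ] ℂ := fun n =>
    ((Fintype.card (I n) : ℂ)⁻¹) • Matrix.traceLinearMap (I n) ℂ ℂ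
  have hτ : ∀ n, TrSt (τ n) := by
    intro n
    refine ⟨?_, fun a => ?_, fun a b => ?_⟩
    · simp [τ]
    · change 0 ≤ (Fintype.card (I n) : ℂ)⁻¹ * Matrix.trace (star a * a)
      exact mul_nonneg (inv_nonneg.2 (Nat.cast_nonneg _))
        (Matrix.posSemidef_conjTranspose_mul_self a).trace_nonneg
    · change _ * Matrix.trace (a * b) = _ * Matrix.trace (b * a)
      rw [Matrix.trace_mul_comm]
  obtain ⟨M, _, σ, Λ, h1, -, h3⟩ := exists_ultra τ hτ
  let s : ∀ k, A k → lp A ∞ := fun k a =>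
    ⟨fun n => if h : k ≤ n then embLE h a else 0, memℓp_infty ⟨‖a‖, by
      rintro _ ⟨n, rfl⟩
      simp only
      split_ifs with h
      · exact NonUnitalStarAlgHom.norm_apply_le (embLE h) a
      · simp⟩⟩
  have hs : ∀ k a n (h : k ≤ n), s k a n = embLE h a := fun k a n h => dif_pos h
  have hev : ∀ k (x y : lp A ∞), (∀ n, k ≤ n → x n = y n) → Λ x = Λ y := fun k x y h =>
    h3 x y (eventually_atTop.2 ⟨k, h⟩)
  let ι : ∀ k, A k →⋆ₐ[ℂ] M := fun k =>
    { toFun := fun a => Λ (s k a)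
      map_one' := by
        rw [← map_one Λ]
        exact hev k _ _ fun n h => by rw [hs _ _ _ h, map_one]; rfl
      map_mul' := fun a b => by
        rw [← map_mul Λ]
        exact hev k _ _ fun n h => by
          rw [hs _ _ _ h, map_mul, ← hs _ _ _ h, ← hs _ _ _ h]; rfl
      map_zero' := by
        rw [← map_zero Λ]
        exact hev k _ _ fun n h => by rw [hs _ _ _ h, map_zero]; rfl
      map_add' := fun a b => by
        rw [← map_add Λ]
        exact hev k _ _ fun n h => by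
          rw [hs _ _ _ h, map_add, ← hs _ _ _ h, ← hs _ _ _ h]; rfl
      commutes' := fun c => by
        rw [← AlgHomClass.commutes Λ]
        exact hev k _ _ fun n h => by rw [hs _ _ _ h, AlgHomClass.commutes]; rfl
      map_star' := fun a => by
        rw [← map_star Λ]
        exact hev k _ _ fun n h => by rw [hs _ _ _ h, map_star, ← hs _ _ _ h]; rfl }
  refine ⟨M, inferInstance, σ, ι, h1, fun k a => ?_⟩
  exact hev (k + 1) _ _ fun n h => by
    rw [hs _ _ _ h, hs _ _ _ (Nat.le_of_succ_le h), embLE_emb]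

theorem exists_sys : ∃ (M : Type) (_ : CStarAlgebra M) (σ : M →ₗ[ℂ] ℂ)
    (D : StarSubalgebra ℂ M) (_ : Sys D), TrSt σ := by
  obtain ⟨M, _, σ, ι, h1, h2⟩ := exists_tower
  have hle : ∀ {k l} (h : k ≤ l) a, ι l (embLE h a) = ι k a := by
    intro k l h a
    induction l, h using Nat.le_induction with
    | base => rw [embLE_self]
    | succ l h ih => rw [embLE_succ h, h2, ih]
  let D : StarSubalgebra ℂ M :=
    { carrier := {x | ∃ k a, ι k a = x}
      mul_mem' := by
        rintro _ _ ⟨k, a, rfl⟩ ⟨l, b, rfl⟩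
        exact ⟨max k l, embLE (le_max_left _ _) a * embLE (le_max_right _ _) b, by
          rw [map_mul, hle, hle]⟩
      add_mem' := by
        rintro _ _ ⟨k, a, rfl⟩ ⟨l, b, rfl⟩
        exact ⟨max k l, embLE (le_max_left _ _) a + embLE (le_max_right _ _) b, by
          rw [map_add, hle, hle]⟩
      algebraMap_mem' := fun c => ⟨0, algebraMap ℂ _ c, AlgHomClass.commutes _ _⟩
      star_mem' := by
        rintro _ ⟨k, a, rfl⟩
        exact ⟨k, star a, map_star _ _⟩ }
  exact ⟨M, inferInstance, σ, D,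
    ⟨fun k => (ι k).codRestrict D fun a => ⟨k, a, rfl⟩, fun k a => Subtype.ext (h2 k a),
      fun ⟨_, k, a, h⟩ => ⟨k, a, Subtype.ext h⟩⟩, h1⟩

theorem exists_gen : ∃ (D : Type) (_ : Ring D) (_ : StarRing D) (_ : Algebra ℂ D)
    (_ : StarModule ℂ D) (U : Sys D) (B : Type) (_ : CStarAlgebra B) (_ : Gen U B)
    (τ : B →ₗ[ℂ] ℂ), TrSt τ ∧ ∀ a, τ (star a * a) = 0 → a = 0 := by
  obtain ⟨M, _, σ, D, U, hσ⟩ := exists_sys
  have := hσ.nontrivial
  obtain ⟨N, _, τ, Λ, h1, h2, h3⟩ := exists_ultra (A := fun _ => M) (fun _ => σ) (fun _ => hσ)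
  let c : D →⋆ₐ[ℂ] lp (fun _ : ℕ => M) ∞ :=
    { toFun := fun d => ⟨fun _ => (d : M), memℓp_infty ⟨‖(d : M)‖, by
        rintro _ ⟨n, rfl⟩; exact le_rfl⟩⟩
      map_one' := rfl
      map_mul' := fun _ _ => rfl
      map_zero' := rfl
      map_add' := fun _ _ => rfl
      commutes' := fun _ => rfl
      map_star' := fun _ => rfl }
  let j₀ : D →⋆ₐ[ℂ] N := Λ.comp c
  obtain ⟨Ψ, hb, hp, hm⟩ := exists_maximal U j₀
  have hWu : ∀ (ψ : Good U) n, ((ψ.W n : D) : M) ∈ unitary M := fun ψ n =>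
    Unitary.map_mem D.subtype (ψ.unit n)
  let w : Good U → lp (fun _ : ℕ => M) ∞ := fun ψ =>
    ⟨fun n => ((ψ.W n : D) : M), memℓp_infty ⟨1, by
      rintro _ ⟨n, rfl⟩
      exact (CStarRing.norm_of_mem_unitary (hWu ψ n)).le⟩⟩
  have hw : ∀ ψ, w ψ ∈ unitary (lp (fun _ : ℕ => M) ∞) := fun ψ =>
    ⟨Subtype.ext (funext fun n => (hWu ψ n).1), Subtype.ext (funext fun n => (hWu ψ n).2)⟩
  let u₀ : Ψ → N := fun ψ => Λ (w ψ)
  let S₀ : StarSubalgebra ℂ N := StarAlgebra.adjoin ℂ (Set.range j₀ ∪ Set.range u₀)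
  let S : StarSubalgebra ℂ N := S₀.topologicalClosure
  have hS : IsClosed (S : Set N) := StarSubalgebra.isClosed_topologicalClosure _
  let j : D →⋆ₐ[ℂ] S := j₀.codRestrict S fun d => StarSubalgebra.le_topologicalClosure _
    (StarAlgebra.subset_adjoin _ _ (Or.inl ⟨d, rfl⟩))
  let u : Ψ → S := fun ψ => ⟨u₀ ψ, StarSubalgebra.le_topologicalClosure _
    (StarAlgebra.subset_adjoin _ _ (Or.inr ⟨ψ, rfl⟩))⟩
  refine ⟨D, inferInstance, inferInstance, inferInstance, inferInstance, U, S,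
    StarSubalgebra.cstarAlgebra S,
    { j := j
      Ψ := Ψ
      base_mem := hb
      pair := hp
      maxl := hm
      u := u
      u_unit := fun ψ => ⟨Subtype.ext (Unitary.map_mem Λ (hw ψ)).1,
        Subtype.ext (Unitary.map_mem Λ (hw ψ)).2⟩
      u_base := Subtype.ext (map_one Λ)
      u_coh := fun ψ n => Subtype.ext ?_
      dense := ?_ },
    τ ∘ₗ S.subtype.toAlgHom.toLinearMap, ⟨h1.one, fun a => h1.pos a, fun a b => h1.tr a b⟩,
    fun a ha => Subtype.ext (h2 a ha)⟩
  · change Λ (w ψ) * Λ (c (1 - ψ.1.e n)) = Λ (c (ψ.1.W n * (1 - ψ.1.e n)))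
    rw [← map_mul]
    refine h3 _ _ (eventually_atTop.2 ⟨n, fun m hm => ?_⟩)
    exact congrArg Subtype.val (ψ.1.coh' hm)
  · rw [Subtype.dense_iff]
    refine closure_mono fun x hx => ?_
    have h4 : x ∈ Algebra.adjoin ℂ ((Set.range j₀ ∪ Set.range u₀) ∪
        star (Set.range j₀ ∪ Set.range u₀)) := by
      rw [← StarAlgebra.adjoin_toSubalgebra]
      exact hx
    have h5 := AlgHom.map_adjoin S.subtype.toAlgHom
      (Set.range j ∪ Set.range u ∪ Set.range fun ψ => star (u ψ))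
    have h6 : x ∈ (Algebra.adjoin ℂ
        (Set.range j ∪ Set.range u ∪ Set.range fun ψ => star (u ψ))).map S.subtype.toAlgHom := by
      rw [h5]
      refine Algebra.adjoin_mono ?_ h4
      rintro y ((⟨d, rfl⟩ | ⟨ψ, rfl⟩) | (⟨d, hd⟩ | ⟨ψ, hψ⟩))
      · exact ⟨j d, Or.inl (Or.inl ⟨d, rfl⟩), rfl⟩
      · exact ⟨u ψ, Or.inl (Or.inr ⟨ψ, rfl⟩), rfl⟩
      · refine ⟨j (star d), Or.inl (Or.inl ⟨_, rfl⟩), ?_⟩
        change j₀ (star d) = y
        rw [map_star, hd, star_star]
      · refine ⟨star (u ψ), Or.inr ⟨ψ, rfl⟩, ?_⟩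
        change star (u₀ ψ) = y
        rw [hψ, star_star]
    exact h6

theorem exists_unital {B : Type} [CStarAlgebra B] {H : Type} [NormedAddCommGroup H]
    [InnerProductSpace ℂ H] [CompleteSpace H] (π : B →⋆ₙₐ[ℂ] (H →L[ℂ] H)) (h0 : π ≠ 0)
    (h : ∀ V : Submodule ℂ H, IsClosed (V : Set H) → (∀ a : B, ∀ v ∈ V, π a v ∈ V) →
      V = ⊥ ∨ V = ⊤) :
    Nontrivial H ∧ ∃ ρ : B →⋆ₐ[ℂ] (H →L[ℂ] H), Irr ρ ∧ ∀ a, ρ a = π a := by
  have hmul : ∀ a b v, π (a * b) v = π a (π b v) := fun a b v => by rw [map_mul]; rfl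
  have h1 : π 1 = 1 := by
    rcases h (LinearMap.ker (π 1).toLinearMap) (ContinuousLinearMap.isClosed_ker _) (by
      intro a v hv
      have hv' : π 1 v = 0 := hv
      change π 1 (π a v) = 0
      rw [← hmul, one_mul, ← mul_one a, hmul, hv', map_zero]) with h1 | h1
    · ext1 v
      have h2 : π 1 v - v ∈ LinearMap.ker (π 1).toLinearMap := by
        change π 1 (π 1 v - v) = 0
        rw [map_sub, ← hmul, one_mul, sub_self]
      rw [h1, Submodule.mem_bot, sub_eq_zero] at h2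
      exact h2
    · exfalso
      apply h0
      ext a v
      have h2 : v ∈ LinearMap.ker (π 1).toLinearMap := by rw [h1]; trivial
      have h3 : π 1 v = 0 := h2
      rw [← mul_one a, hmul, h3, map_zero]
      rfl
  refine ⟨?_, { toFun := π
                map_one' := h1
                map_mul' := map_mul π
                map_zero' := map_zero π
                map_add' := map_add π
                commutes' := fun c => by
                  rw [Algebra.algebraMap_eq_smul_one, map_smul, h1, Algebra.algebraMap_eq_smul_one]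
                map_star' := map_star π }, h, fun _ => rfl⟩
  by_contra hn
  rw [not_nontrivial_iff_subsingleton] at hn
  apply h0
  ext a v
  exact Subsingleton.elim _ _

end Crest.Agent.R120
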