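import Mathlib

/-!
Matrix lemmas: polar decomposition, reflections, amplification, projections, traces.
-/

set_option autoImplicit false
set_option linter.unusedSectionVars false

noncomputable section

namespace Crest.Agent.R120

open Matrix

theorem polar_unit {M : Type*} [CStarAlgebra M] (a : M) (ha : IsUnit a) :
    ∃ w ∈ unitary M, ∃ c : M, a = w * (star c * c) ∧
      ∀ x, Commute x a → Commute x (star a) → Commute x w := by
  let := CStarAlgebra.spectralOrder M
  have := CStarAlgebra.spectralOrderedRing M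
  have h0 : 0 ≤ star a * a := star_mul_self_nonneg a
  set b := CFC.sqrt (star a * a) with hb
  have hb0 : 0 ≤ b := CFC.sqrt_nonneg _
  have hbb : b * b = star a * a := CFC.sqrt_mul_sqrt_self _ h0
  have hbu : IsUnit b := (CFC.isUnit_sqrt_iff _ h0).2 (ha.star.mul ha)
  have hbs : star b = b := hb0.isSelfAdjoint.star_eq
  obtain ⟨B, hB⟩ := hbu
  obtain ⟨A, hA⟩ := ha
  have hBs : star ((B⁻¹ : Mˣ) : M) = (B⁻¹ : Mˣ) := by
    have h1 : star ((B⁻¹ : Mˣ) : M) * b = 1 := by
      rw [← hbs, ← star_mul, ← hB, Units.mul_inv, star_one]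
    rw [← hB] at h1
    exact (Units.eq_inv_of_mul_eq_one_right h1)
  have h1 : star (a * (B⁻¹ : Mˣ)) * (a * (B⁻¹ : Mˣ)) = 1 := by
    rw [star_mul, hBs, mul_assoc, ← mul_assoc (star a), ← hbb, ← hB]
    simp
  refine ⟨a * (B⁻¹ : Mˣ), ⟨h1, ?_⟩, CFC.sqrt b, ?_, ?_⟩
  · have hu : IsUnit (a * (B⁻¹ : Mˣ)) := (hA ▸ A.isUnit).mul (Units.isUnit _)
    obtain ⟨U, hU⟩ := hu
    rw [← hU] at h1 ⊢
    rw [Units.eq_inv_of_mul_eq_one_right h1, Units.mul_inv]
  · rw [(CFC.sqrt_nonneg b).isSelfAdjoint.star_eq, CFC.sqrt_mul_sqrt_self _ hb0, ← hB]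
    simp
  · intro x h1 h2
    have h3 : Commute b x := by
      rw [hb, CFC.sqrt_eq_cfc]
      exact (h2.mul_right h1).symm.cfc_nnreal _
    rw [← hB] at h3
    exact h1.mul_right h3.symm.units_inv_right

section
variable {n : Type*} [Fintype n] [DecidableEq n]

theorem polar_matrix (a : Matrix n n ℂ) {δ : ℝ} (hδ : 0 < δ) :
    ∃ t : ℝ, 0 < t ∧ t < δ ∧ ∃ w ∈ unitary (Matrix n n ℂ), ∃ c : Matrix n n ℂ,
      a + (t : ℂ) • 1 = w * (star c * c) ∧
      ∀ x, Commute x a → Commute x (star a) → Commute x w := by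
  have hinf : ((fun t : ℝ => (t : ℂ)) '' Set.Ioo 0 δ).Infinite :=
    (Set.Ioo_infinite hδ).image Complex.ofReal_injective.injOn
  obtain ⟨_, ⟨t, ht, rfl⟩, hts⟩ := hinf.exists_notMem_finite (Matrix.finite_spectrum (-a))
  rw [spectrum.notMem_iff, Algebra.algebraMap_eq_smul_one, sub_neg_eq_add, add_comm] at hts
  let := Matrix.instCStarAlgebra (n := n)
  obtain ⟨w, hw, c, h1, h2⟩ := polar_unit (M := Matrix n n ℂ) _ hts
  refine ⟨t, ht.1, ht.2, w, hw, c, h1, fun x hx hx' => h2 x ?_ ?_⟩
  · exact hx.add_right ((Commute.one_right x).smul_right _)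
  · rw [star_add, star_smul, star_one]
    exact hx'.add_right ((Commute.one_right x).smul_right _)

end

section
variable {R : Type*} [Ring R] [StarRing R] [Algebra ℂ R] [StarModule ℂ R]

theorem exists_reflection (f C : R) (γ : ℂ) (hf : star f = f) (hff : f * f = f)
    (hC : star C * C = f) (hCf : C * f = C) (hγ : f * C = γ • f) :
    ∃ (θ : ℂ) (s : ℂ), (1 - s • ((C - θ • f) * star (C - θ • f))) ∈ unitary R ∧
      star s = s ∧ (1 - s • ((C - θ • f) * star (C - θ • f))) * C = θ • f := by
  obtain ⟨θ, hθ1, hθ⟩ : ∃ θ : ℂ, star θ * θ = 1 ∧ star θ * γ = -(‖γ‖ : ℂ) := by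
    by_cases h : γ = 0
    · exact ⟨1, by simp, by simp [h]⟩
    · have h' : (‖γ‖ : ℂ) ≠ 0 := by simpa using h
      have h2 : (starRingEnd ℂ) γ * γ = (‖γ‖ : ℂ) ^ 2 := by
        rw [Complex.conj_mul']
      refine ⟨-γ / ‖γ‖, ?_, ?_⟩
      · simp only [Complex.star_def, map_div₀, map_neg, Complex.conj_ofReal]
        field_simp
        exact h2
      · simp only [Complex.star_def, map_div₀, map_neg, Complex.conj_ofReal]
        field_simp
        rw [h2]
  have hθ' : θ * star γ = -(‖γ‖ : ℂ) := by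
    have := congrArg star hθ
    simpa [mul_comm] using this
  have hr : (1 + ‖γ‖ : ℂ) ≠ 0 := by
    have : (0 : ℝ) < 1 + ‖γ‖ := by positivity
    exact_mod_cast this.ne'
  have hγ' : star C * f = star γ • f := by
    have := congrArg star hγ
    rwa [star_mul, star_smul, hf] at this
  set v := C - θ • f with hv
  have hvC : star v * C = (1 + ‖γ‖ : ℂ) • f := by
    rw [hv, star_sub, star_smul, hf, sub_mul, hC, smul_mul_assoc, hγ, smul_smul, hθ]
    module
  have hvf : star v * f = (star γ - star θ) • f := by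
    rw [hv, star_sub, star_smul, hf, sub_mul, hγ', smul_mul_assoc, hff, sub_smul]
  have hvv : star v * v = (2 * (1 + ‖γ‖) : ℂ) • f := by
    conv_lhs => rw [hv, mul_sub, ← hv, hvC, mul_smul_comm, hvf, smul_smul, mul_sub, hθ',
      mul_comm θ, hθ1]
    module
  have hvf' : v * f = v := by
    rw [hv, sub_mul, hCf, smul_mul_assoc, hff]
  have hs : star ((1 + ‖γ‖ : ℂ)⁻¹) = (1 + ‖γ‖ : ℂ)⁻¹ := by simp
  have hsa : star (1 - (1 + ‖γ‖ : ℂ)⁻¹ • (v * star v)) = 1 - (1 + ‖γ‖ : ℂ)⁻¹ • (v * star v) := by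
    rw [star_sub, star_smul, hs, star_one, star_mul, star_star]
  have hsq : (1 - (1 + ‖γ‖ : ℂ)⁻¹ • (v * star v)) * (1 - (1 + ‖γ‖ : ℂ)⁻¹ • (v * star v)) = 1 := by
    have h1 : (v * star v) * (v * star v) = (2 * (1 + ‖γ‖) : ℂ) • (v * star v) := by
      rw [mul_assoc, ← mul_assoc (star v), hvv, smul_mul_assoc, mul_smul_comm, ← mul_assoc, hvf']
    rw [sub_mul, mul_sub, mul_sub, smul_mul_assoc, smul_mul_assoc, mul_smul_comm, mul_smul_comm, h1]
    simp only [one_mul, mul_one, smul_smul]
    have h2 : (1 + ‖γ‖ : ℂ)⁻¹ * ((1 + ‖γ‖ : ℂ)⁻¹ * (2 * (1 + ‖γ‖))) = 2 * (1 + ‖γ‖ : ℂ)⁻¹ := by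
      field_simp
    rw [h2]
    module
  refine ⟨θ, (1 + ‖γ‖ : ℂ)⁻¹, ⟨?_, ?_⟩, hs, ?_⟩
  · rw [← hv, hsa, hsq]
  · rw [← hv, hsa, hsq]
  · rw [← hv, sub_mul, smul_mul_assoc, mul_assoc, hvC, mul_smul_comm, hvf', smul_smul,
      inv_mul_cancel₀ hr, one_smul, one_mul, hv, sub_sub_cancel]

variable {n : Type*} [Fintype n] [DecidableEq n]

/-- amplification of a corner -/
def amp (φ : Matrix n n ℂ →⋆ₐ[ℂ] R) (o : n) (y : R) : R :=
  ∑ μ, φ (single μ o 1) * y * φ (single o μ 1)

theorem star_single (i j : n) : star (single i j (1 : ℂ)) = single j i 1 := by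
  rw [star_eq_conjTranspose, conjTranspose_single, star_one]

theorem star_amp (φ : Matrix n n ℂ →⋆ₐ[ℂ] R) (o : n) (y : R) :
    star (amp φ o y) = amp φ o (star y) := by
  simp only [amp, star_sum, star_mul, ← map_star, star_single, mul_assoc]

theorem commute_amp (φ : Matrix n n ℂ →⋆ₐ[ℂ] R) (o : n) (y : R) (x : Matrix n n ℂ) :
    Commute (φ x) (amp φ o y) := by
  induction x using Matrix.induction_on' with
  | h_zero => simp
  | h_add p q hp hq => rw [map_add]; exact hp.add_left hq
  | h_std_basis i j c =>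
    have h1 : φ (single i j c) * amp φ o y = c • (φ (single i o 1) * y * φ (single o j 1)) := by
      rw [amp, Finset.mul_sum, Finset.sum_eq_single j]
      · rw [← mul_assoc, ← mul_assoc, ← map_mul, single_mul_single_same, ← smul_mul_assoc,
          ← smul_mul_assoc, ← map_smul, smul_single]
        simp
      · intro b _ hb
        rw [← mul_assoc, ← mul_assoc, ← map_mul, single_mul_single_of_ne _ _ _ _ hb.symm]
        simp
      · simp
    have h2 : amp φ o y * φ (single i j c) = c • (φ (single i o 1) * y * φ (single o j 1)) := by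
      rw [amp, Finset.sum_mul, Finset.sum_eq_single i]
      · rw [mul_assoc, ← map_mul, single_mul_single_same, ← mul_smul_comm, ← map_smul, smul_single]
        simp
      · intro b _ hb
        rw [mul_assoc, ← map_mul, single_mul_single_of_ne _ _ _ _ hb]
        simp
      · simp
    exact h1.trans h2.symm

theorem amp_mul (φ : Matrix n n ℂ →⋆ₐ[ℂ] R) (o : n) (y : R) :
    amp φ o y * φ (single o o 1) = φ (single o o 1) * y * φ (single o o 1) := by
  rw [amp, Finset.sum_mul, Finset.sum_eq_single o]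
  · rw [mul_assoc, ← map_mul, single_mul_single_same, mul_one]
  · intro b _ hb
    rw [mul_assoc, ← map_mul, single_mul_single_of_ne _ _ _ _ hb]
    simp
  · simp

theorem sum_single_mul (φ : Matrix n n ℂ →⋆ₐ[ℂ] R) (o : n) :
    ∑ μ, φ (single μ o 1) * φ (single o μ 1) = 1 := by
  simp only [← map_mul, single_mul_single_same, mul_one, ← map_sum]
  rw [Matrix.sum_single_one, map_one]

theorem single_conj (x : Matrix n n ℂ) (i : n) :
    single i i (1 : ℂ) * x * single i i (1 : ℂ) = x i i • single i i (1 : ℂ) := by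
  rw [single_mul_mul_single, smul_single]
  simp

theorem tracial_eq (σ : Matrix n n ℂ →ₗ[ℂ] ℂ) (h : ∀ a b, σ (a * b) = σ (b * a)) (h1 : σ 1 = 1)
    (a : Matrix n n ℂ) : (Fintype.card n : ℂ) * σ a = trace a := by
  have h2 : ∀ i j : n, σ (single i i 1) = σ (single j j 1) := by
    intro i j
    have := h (single i j 1) (single j i 1)
    simpa [single_mul_single_same] using this
  induction a using Matrix.induction_on' with
  | h_zero => simp
  | h_add p q hp hq => rw [map_add, mul_add, hp, hq, trace_add]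
  | h_std_basis i j c =>
    have h3 : single i j c = c • single i j (1 : ℂ) := by simp
    by_cases hij : i = j
    · subst hij
      rw [trace_single_eq_same, h3, map_smul, smul_eq_mul, mul_left_comm]
      have h4 : ∑ j : n, σ (single j j 1) = 1 := by
        rw [← map_sum, Matrix.sum_single_one, h1]
      rw [Finset.sum_congr rfl fun j _ => h2 j i] at h4
      simp only [Finset.sum_const, Finset.card_univ, nsmul_eq_mul] at h4
      rw [h4, mul_one]
    · rw [trace_single_eq_of_ne _ _ _ hij]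
      have := h (single i j c) (single j j 1)
      rw [single_mul_single_same, single_mul_single_of_ne _ _ _ _ (Ne.symm hij)] at this
      simp only [mul_one, map_zero] at this
      rw [this, mul_zero]

theorem exists_proj_sup (q₁ q₂ d : Matrix n n ℂ) (h₁ : IsStarProjection q₁)
    (h₂ : IsStarProjection q₂) :
    ∃ q : Matrix n n ℂ, IsStarProjection q ∧ (trace q).re ≤ (trace q₁).re + (trace q₂).re ∧
      q₁ * (1 - q) = 0 ∧ q₂ * d * (1 - q) = 0 := by
  let Φ := Matrix.toEuclideanCLM (n := n) (𝕜 := ℂ)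
  have htr : ∀ a : Matrix n n ℂ, trace a =
      LinearMap.trace ℂ _ (Φ a : EuclideanSpace ℂ n →L[ℂ] EuclideanSpace ℂ n).toLinearMap := by
    intro a
    rw [Matrix.coe_toEuclideanCLM_eq_toEuclideanLin, Matrix.toEuclideanLin, Matrix.toLpLin_eq_toLin,
      Matrix.trace_toLin_eq]
  have hrk : ∀ a : Matrix n n ℂ, IsIdempotentElem a → trace a =
      Module.finrank ℂ (LinearMap.range (Φ a).toLinearMap) := by
    intro a ha
    rw [htr]
    refine LinearMap.IsProj.trace (LinearMap.IsIdempotentElem.isProj_range _ ?_)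
    have : IsIdempotentElem (Φ a) := ha.map Φ
    exact ContinuousLinearMap.IsIdempotentElem.toLinearMap this
  let K : Submodule ℂ (EuclideanSpace ℂ n) := LinearMap.range (Φ q₁).toLinearMap ⊔
    (LinearMap.range (Φ q₂).toLinearMap).map (Φ (star d)).toLinearMap
  have hinj : Function.Injective Φ := Φ.injective
  have hq : IsStarProjection (Φ.symm K.starProjection) := by
    have h0 := isStarProjection_starProjection (U := K)
    constructor
    · apply hinj
      rw [map_mul, StarAlgEquiv.apply_symm_apply]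
      exact h0.isIdempotentElem
    · apply hinj
      rw [map_star Φ, StarAlgEquiv.apply_symm_apply]
      exact h0.isSelfAdjoint
  refine ⟨Φ.symm K.starProjection, hq, ?_, ?_, ?_⟩
  · rw [hrk _ hq.isIdempotentElem, hrk _ h₁.isIdempotentElem, hrk _ h₂.isIdempotentElem,
      StarAlgEquiv.apply_symm_apply, Submodule.range_starProjection]
    simp only [Complex.natCast_re]
    have h1 := Submodule.finrank_add_le_finrank_add_finrank (LinearMap.range (Φ q₁).toLinearMap)
      ((LinearMap.range (Φ q₂).toLinearMap).map (Φ (star d)).toLinearMap)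
    have h2 := Submodule.finrank_map_le (Φ (star d)).toLinearMap
      (LinearMap.range (Φ q₂).toLinearMap)
    exact_mod_cast h1.trans (Nat.add_le_add_left h2 _)
  · apply star_injective
    rw [star_mul, star_sub, star_one, hq.isSelfAdjoint.star_eq, h₁.isSelfAdjoint.star_eq, star_zero]
    apply hinj
    rw [map_mul, map_sub, map_one, StarAlgEquiv.apply_symm_apply, map_zero]
    ext1 v
    change Φ q₁ v - K.starProjection (Φ q₁ v) = 0
    have : Φ q₁ v ∈ K := Submodule.mem_sup_left ⟨v, rfl⟩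
    rw [Submodule.starProjection_eq_self_iff.2 this, sub_self]
  · apply star_injective
    rw [star_mul, star_mul, star_sub, star_one, hq.isSelfAdjoint.star_eq, h₂.isSelfAdjoint.star_eq,
      star_zero]
    apply hinj
    rw [map_mul, map_mul, map_sub, map_one, StarAlgEquiv.apply_symm_apply, map_zero]
    ext1 v
    change Φ (star d) (Φ q₂ v) - K.starProjection (Φ (star d) (Φ q₂ v)) = 0
    have : Φ (star d) (Φ q₂ v) ∈ K := Submodule.mem_sup_right ⟨Φ q₂ v, ⟨v, rfl⟩, rfl⟩
    rw [Submodule.starProjection_eq_self_iff.2 this, sub_self]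

end

end Crest.Agent.R120
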