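import Crest.Agent.Lib.HilbUltra.Basic

/-!
Tracial states: the cyclic representation, faithful images and tracial ultraproducts.
-/

set_option autoImplicit false
set_option linter.unusedSectionVars false

noncomputable section

namespace Crest.Agent.R120

open Filter Topology
open scoped InnerProductSpace ComplexOrder ENNReal
open Crest.Agent.Lib.HilbUltra

/-- tracial state -/
structure TrSt {B : Type} [CStarAlgebra B] (τ : B →ₗ[ℂ] ℂ) : Prop where
  one : τ 1 = 1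
  pos : ∀ a, 0 ≤ τ (star a * a)
  tr : ∀ a b, τ (a * b) = τ (b * a)

variable {B : Type} [CStarAlgebra B]

theorem exists_gns (τ : B →ₗ[ℂ] ℂ) (h : ∀ a, 0 ≤ τ (star a * a)) :
    ∃ (H : Type) (_ : NormedAddCommGroup H) (_ : InnerProductSpace ℂ H) (_ : CompleteSpace H)
      (lam : B →⋆ₐ[ℂ] (H →L[ℂ] H)) (Ω : H),
      (∀ a, τ a = ⟪Ω, lam a Ω⟫_ℂ) ∧ DenseRange fun a => lam a Ω := by
  let := CStarAlgebra.spectralOrder B
  have := CStarAlgebra.spectralOrderedRing B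
  let φ : B →ₚ[ℂ] ℂ := PositiveLinearMap.mk₀ τ fun x hx => by
    obtain ⟨b, rfl⟩ := CStarAlgebra.nonneg_iff_eq_star_mul_self.1 hx
    exact h b
  have key : ∀ a, φ.gnsStarAlgHom a ((φ.toPreGNS 1 : φ.PreGNS) : φ.GNS) =
      ((φ.toPreGNS a : φ.PreGNS) : φ.GNS) := by
    intro a
    change φ.gnsNonUnitalStarAlgHom a _ = _
    rw [PositiveLinearMap.gnsNonUnitalStarAlgHom_apply_coe]
    congr 1
    simp
  refine ⟨φ.GNS, inferInstance, inferInstance, inferInstance, φ.gnsStarAlgHom,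
    ((φ.toPreGNS 1 : φ.PreGNS) : φ.GNS), fun a => ?_, ?_⟩
  · rw [key, UniformSpace.Completion.inner_coe, PositiveLinearMap.preGNS_inner_def]
    simp only [PositiveLinearMap.ofPreGNS_toPreGNS, star_one, one_mul]
    rfl
  · simp only [key]
    exact UniformSpace.Completion.denseRange_coe.comp φ.toPreGNS.surjective.denseRange
      (UniformSpace.Completion.continuous_coe _)

theorem rep_norm_sq {H : Type*} [NormedAddCommGroup H] [InnerProductSpace ℂ H] [CompleteSpace H]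
    (T : H →L[ℂ] H) (v : H) : (⟪v, (star T * T) v⟫_ℂ) = ((‖T v‖ ^ 2 : ℝ) : ℂ) := by
  change ⟪v, star T (T v)⟫_ℂ = _
  rw [ContinuousLinearMap.star_eq_adjoint, ContinuousLinearMap.adjoint_inner_right,
    inner_self_eq_norm_sq_to_K]
  simp

theorem TrSt.bound {τ : B →ₗ[ℂ] ℂ} (h : TrSt τ) (a b : B) :
    ‖τ (a * b)‖ ^ 2 ≤ ‖a‖ ^ 2 * (τ (star b * b)).re := by
  obtain ⟨H, _, _, _, lam, Ω, h1, -⟩ := exists_gns τ h.pos
  have hΩ : ‖Ω‖ = 1 := by
    have h2 := h1 1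
    have h4 := rep_norm_sq (1 : H →L[ℂ] H) Ω
    rw [h.one, map_one] at h2
    rw [star_one, one_mul, ← h2, one_apply_eq_self] at h4
    have h3 : ‖Ω‖ ^ 2 = 1 := by exact_mod_cast h4.symm
    exact (pow_eq_one_iff_of_nonneg (norm_nonneg _) two_ne_zero).1 h3
  rw [h1, h1, map_mul, map_mul, map_star, rep_norm_sq, Complex.ofReal_re, ← mul_pow]
  refine pow_le_pow_left₀ (norm_nonneg _) ((norm_inner_le_norm _ _).trans ?_) 2
  rw [hΩ, one_mul]
  exact ((lam a).le_opNorm _).trans (mul_le_mul_of_nonneg_right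
    (NonUnitalStarAlgHom.norm_apply_le lam a) (norm_nonneg _))

theorem TrSt.norm_le {τ : B →ₗ[ℂ] ℂ} (h : TrSt τ) (a : B) : ‖τ a‖ ≤ ‖a‖ := by
  have := h.bound a 1
  rw [mul_one, star_one, mul_one, h.one, Complex.one_re, mul_one] at this
  exact (sq_le_sq₀ (norm_nonneg _) (norm_nonneg _)).1 this

theorem TrSt.nontrivial {τ : B →ₗ[ℂ] ℂ} (h : TrSt τ) : Nontrivial B := by
  refine ⟨1, 0, fun h0 => ?_⟩
  have := h.one
  rw [h0, map_zero] at this
  exact zero_ne_one this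

theorem exists_faithful {τ : B →ₗ[ℂ] ℂ} (h : TrSt τ) :
    ∃ (M : Type) (_ : CStarAlgebra M) (σ : M →ₗ[ℂ] ℂ) (Λ : B →⋆ₐ[ℂ] M), TrSt σ ∧
      (∀ a, σ (star a * a) = 0 → a = 0) ∧ ∀ x, σ (Λ x) = τ x := by
  obtain ⟨H, _, _, _, lam, Ω, h1, hd⟩ := exists_gns τ h.pos
  let S : StarSubalgebra ℂ (H →L[ℂ] H) := lam.range.topologicalClosure
  have hS : IsClosed (S : Set (H →L[ℂ] H)) := StarSubalgebra.isClosed_topologicalClosure _
  let σ : S →ₗ[ℂ] ℂ :=
    { toFun := fun a => ⟪Ω, (a : H →L[ℂ] H) Ω⟫_ℂ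
      map_add' := fun a b => by simp
      map_smul' := fun c a => by simp }
  have hind : ∀ {P : (H →L[ℂ] H) → Prop}, IsClosed {a | P a} → (∀ x, P (lam x)) →
      ∀ a ∈ S, P a := by
    intro P hP hx a ha
    refine closure_minimal (t := {a | P a}) ?_ hP ha
    rintro _ ⟨x, rfl⟩
    exact hx x
  refine ⟨S, StarSubalgebra.cstarAlgebra S, σ,
    lam.codRestrict S fun x => StarSubalgebra.le_topologicalClosure _ ⟨x, rfl⟩,
    ⟨?_, fun a => ?_, fun a b => ?_⟩, fun a ha => ?_, fun x => (h1 x).symm⟩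
  · have := h1 1
    rw [h.one, map_one] at this
    exact this.symm
  · change 0 ≤ ⟪Ω, (star (a : H →L[ℂ] H) * (a : H →L[ℂ] H)) Ω⟫_ℂ
    rw [rep_norm_sq]
    exact Complex.zero_le_real.2 (sq_nonneg _)
  · change ⟪Ω, ((a : H →L[ℂ] H) * (b : H →L[ℂ] H)) Ω⟫_ℂ =
      ⟪Ω, ((b : H →L[ℂ] H) * (a : H →L[ℂ] H)) Ω⟫_ℂ
    refine hind (P := fun a => ⟪Ω, (a * (b : H →L[ℂ] H)) Ω⟫_ℂ = ⟪Ω, ((b : H →L[ℂ] H) * a) Ω⟫_ℂ)
      (isClosed_eq (by fun_prop) (by fun_prop)) (fun x => ?_) a a.2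
    refine hind (P := fun b => ⟪Ω, (lam x * b) Ω⟫_ℂ = ⟪Ω, (b * lam x) Ω⟫_ℂ)
      (isClosed_eq (by fun_prop) (by fun_prop)) (fun y => ?_) b b.2
    rw [← map_mul, ← map_mul, ← h1, ← h1, h.tr]
  · change ⟪Ω, (star (a : H →L[ℂ] H) * (a : H →L[ℂ] H)) Ω⟫_ℂ = 0 at ha
    rw [rep_norm_sq] at ha
    have ha0 : ‖(a : H →L[ℂ] H) Ω‖ = 0 := by
      have : ‖(a : H →L[ℂ] H) Ω‖ ^ 2 = 0 := by exact_mod_cast ha
      exact pow_eq_zero_iff two_ne_zero |>.1 this
    have key : ∀ b, ‖(a : H →L[ℂ] H) (lam b Ω)‖ ≤ ‖b‖ * ‖(a : H →L[ℂ] H) Ω‖ := by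
      intro b
      refine hind (P := fun a => ‖a (lam b Ω)‖ ≤ ‖b‖ * ‖a Ω‖)
        (isClosed_le (by fun_prop) (by fun_prop)) (fun x => ?_) a a.2
      have e : ∀ y, ‖lam y Ω‖ = ‖lam (star y) Ω‖ := by
        intro y
        have e1 := rep_norm_sq (lam y) Ω
        have e2 := rep_norm_sq (lam (star y)) Ω
        rw [← map_star, ← map_mul, ← h1] at e1 e2
        rw [star_star, h.tr, e1] at e2
        have e3 : ‖lam y Ω‖ ^ 2 = ‖lam (star y) Ω‖ ^ 2 := by exact_mod_cast e2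
        exact (sq_eq_sq₀ (norm_nonneg _) (norm_nonneg _)).1 e3
      change ‖(lam x * lam b) Ω‖ ≤ _
      rw [← map_mul, e, e x, star_mul, map_mul, ← norm_star b]
      exact ((lam (star b)).le_opNorm _).trans (mul_le_mul_of_nonneg_right
        (NonUnitalStarAlgHom.norm_apply_le lam _) (norm_nonneg _))
    apply Subtype.ext
    ext1 v
    refine hd.induction_on (p := fun v => (a : H →L[ℂ] H) v = (0 : H →L[ℂ] H) v) v
      (isClosed_eq (by fun_prop) (by fun_prop)) fun b => ?_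
    have := key b
    rw [ha0, mul_zero] at this
    exact norm_le_zero_iff.1 this

instance lpCStar {A : ℕ → Type} [∀ n, CStarAlgebra (A n)] [∀ n, Nontrivial (A n)] :
    CStarAlgebra (lp A ∞) where

theorem exists_ultra {A : ℕ → Type} [∀ n, CStarAlgebra (A n)] [∀ n, Nontrivial (A n)]
    (τ : ∀ n, A n →ₗ[ℂ] ℂ) (h : ∀ n, TrSt (τ n)) :
    ∃ (M : Type) (_ : CStarAlgebra M) (σ : M →ₗ[ℂ] ℂ) (Λ : lp A ∞ →⋆ₐ[ℂ] M), TrSt σ ∧
      (∀ a, σ (star a * a) = 0 → a = 0) ∧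
      ∀ x y : lp A ∞, (∀ᶠ n in atTop, x n = y n) → Λ x = Λ y := by
  let ω : Ultrafilter ℕ := hyperfilter ℕ
  have hω : (ω : Filter ℕ) ≤ atTop := Nat.hyperfilter_le_atTop
  have ht : ∀ x : lp A ∞, Tendsto (fun n => τ n (x n)) ω (𝓝 (ulim ω fun n => τ n (x n))) :=
    fun x => tendsto_ulim ω (C := ‖x‖) fun n =>
      ((h n).norm_le _).trans (lp.norm_apply_le_norm ENNReal.top_ne_zero x n)
  let σ₀ : lp A ∞ →ₗ[ℂ] ℂ :=
    { toFun := fun x => ulim ω fun n => τ n (x n)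
      map_add' := fun x y => tendsto_nhds_unique (ht (x + y)) (by
        simpa using (ht x).add (ht y))
      map_smul' := fun c x => tendsto_nhds_unique (ht (c • x)) (by
        simpa using (ht x).const_mul c) }
  have ht' : ∀ x : lp A ∞, Tendsto (fun n => τ n (x n)) ω (𝓝 (σ₀ x)) := ht
  have hσ₀ : TrSt σ₀ := by
    refine ⟨?_, fun a => ?_, fun a b => ?_⟩
    · refine tendsto_nhds_unique (ht' 1) (tendsto_const_nhds.congr fun n => ?_)
      exact (h n).one.symm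
    · refine ge_of_tendsto' (ht' _) fun n => ?_
      exact (h n).pos (a n)
    · refine tendsto_nhds_unique (ht' _) ((ht' _).congr fun n => ?_)
      exact (h n).tr (b n) (a n)
  obtain ⟨M, _, σ, Λ, h1, h2, h3⟩ := exists_faithful hσ₀
  refine ⟨M, inferInstance, σ, Λ, h1, h2, fun x y hxy => ?_⟩
  rw [← sub_eq_zero, ← map_sub]
  apply h2
  rw [← map_star, ← map_mul, h3]
  refine tendsto_nhds_unique (ht' _) (tendsto_const_nhds.congr' ?_)
  filter_upwards [hω hxy] with n hn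
  change 0 = τ n (star (x n - y n) * (x n - y n))
  rw [hn, sub_self, mul_zero, map_zero]

end Crest.Agent.R120
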