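import Crest.Agent.R120.Uniq
import Crest.Agent.R120.Trace

/-!
Simplicity and infinite dimension.
-/

set_option autoImplicit false
set_option linter.unusedSectionVars false

noncomputable section

namespace Crest.Agent.R120

open Filter Topology Matrix

variable {D : Type} [Ring D] [StarRing D] [Algebra ℂ D] [StarModule ℂ D] {U : Sys D}
variable {B : Type} [CStarAlgebra B]

namespace Gen

variable (Γ : Gen U B) {τ : B →ₗ[ℂ] ℂ}

theorem tr_ι (hτ : TrSt τ) (k : ℕ) (a : A k) :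
    (Fintype.card (I k) : ℂ) * τ (Γ.j (U.ι k a)) = trace a := by
  let σ : A k →ₗ[ℂ] ℂ :=
    { toFun := fun a => τ (Γ.j (U.ι k a))
      map_add' := fun a b => by simp
      map_smul' := fun c a => by simp }
  refine tracial_eq σ (fun a b => ?_) ?_ a
  · simp only [σ, LinearMap.coe_mk, AddHom.coe_mk, map_mul]
    exact hτ.tr _ _
  · simp only [σ, LinearMap.coe_mk, AddHom.coe_mk, map_one]
    exact hτ.one

theorem tr_ι_re (hτ : TrSt τ) (k : ℕ) (a : A k) :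
    (Fintype.card (I k) : ℝ) * (τ (Γ.j (U.ι k a))).re = (trace a).re := by
  rw [← Γ.tr_ι hτ k a, ← Complex.re_ofReal_mul, Complex.ofReal_natCast]

theorem tr_F (hτ : TrSt τ) {ε : ℝ} (hε : 0 < ε) :
    ∃ N : ℕ, ∀ k, N ≤ k → (τ (Γ.j (U.F k))).re ≤ ε := by
  obtain ⟨N, hN⟩ := exists_nat_gt (1 / ε)
  refine ⟨N, fun k hk => ?_⟩
  have h1 := Γ.tr_ι_re hτ k (f k)
  rw [f, trace_single_eq_same, Complex.one_re, ← f, ← Sys.F] at h1
  have h2 : (N : ℝ) ≤ Fintype.card (I k) := by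
    have := card_I k
    exact_mod_cast (by omega : N ≤ Fintype.card (I k))
  have h3 : 1 / ε < Fintype.card (I k) := hN.trans_le h2
  rw [div_lt_iff₀ hε] at h3
  have h4 : (0 : ℝ) < Fintype.card (I k) := by exact_mod_cast Fintype.card_pos
  by_contra h5
  push Not at h5
  nlinarith

theorem proj_sup (hτ : TrSt τ) {q₁ q₂ : D} (h₁ : IsStarProjection q₁) (h₂ : IsStarProjection q₂)
    (d : D) : ∃ q : D, IsStarProjection q ∧
      (τ (Γ.j q)).re ≤ (τ (Γ.j q₁)).re + (τ (Γ.j q₂)).re ∧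
      q₁ * (1 - q) = 0 ∧ q₂ * d * (1 - q) = 0 := by
  have := hτ.nontrivial
  have : Nontrivial D := (Γ.j : D →+* B).domain_nontrivial
  obtain ⟨k₁, h1⟩ := U.exh q₁
  obtain ⟨k₂, hk₂, h2⟩ := U.exh_ge q₂ k₁
  obtain ⟨k, hk, d₀, rfl⟩ := U.exh_ge d k₂
  obtain ⟨a₁, rfl⟩ := U.lift (hk₂.trans hk) h1
  obtain ⟨a₂, rfl⟩ := U.lift hk h2
  have hp : ∀ a, IsStarProjection (U.ι k a) → IsStarProjection a := by
    intro a ha
    constructor
    · apply U.inj k
      rw [map_mul]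
      exact ha.isIdempotentElem
    · apply U.inj k
      rw [map_star]
      exact ha.isSelfAdjoint
  obtain ⟨q, hq, h3, h4, h5⟩ := exists_proj_sup a₁ a₂ d₀ (hp _ h₁) (hp _ h₂)
  refine ⟨U.ι k q, hq.map _, ?_, ?_, ?_⟩
  · rw [← Γ.tr_ι_re hτ, ← Γ.tr_ι_re hτ, ← Γ.tr_ι_re hτ, ← mul_add] at h3
    have h4 : (0 : ℝ) < Fintype.card (I k) := by exact_mod_cast Fintype.card_pos
    exact le_of_mul_le_mul_left h3 h4
  · rw [← map_one (U.ι k), ← map_sub, ← map_mul, h4, map_zero]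
  · rw [← map_one (U.ι k), ← map_sub, ← map_mul, ← map_mul, h5, map_zero]

theorem small (hτ : TrSt τ) : ∀ x ∈ Algebra.adjoin ℂ
      (Set.range Γ.j ∪ Set.range Γ.u ∪ Set.range fun ψ => star (Γ.u ψ)),
    ∀ ε : ℝ, 0 < ε → ∃ q : D, IsStarProjection q ∧ (τ (Γ.j q)).re ≤ ε ∧
      ∃ d, x * Γ.j (1 - q) = Γ.j d := by
  refine Γ.adjoin_ind ?_ ?_ ?_ ?_ ?_
  · intro d ε hε
    exact ⟨0, IsStarProjection.zero _, by simpa using hε.le, d, by simp⟩
  · intro ψ ε hε
    obtain ⟨N, hN⟩ := Γ.tr_F hτ hε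
    refine ⟨ψ.1.e N, ψ.1.e_proj N, ?_, _, Γ.u_coh ψ N⟩
    rw [Good.e, map_mul Γ.j, hτ.tr, ← map_mul, ← mul_assoc, (ψ.1.unit N).2, one_mul]
    exact hN _ (ψ.1.le_k N)
  · intro ψ ε hε
    obtain ⟨N, hN⟩ := Γ.tr_F hτ hε
    refine ⟨U.F (ψ.1.k N), U.F_proj _, hN _ (ψ.1.le_k N), star (ψ.1.W N * (1 - ψ.1.e N)), ?_⟩
    rw [map_sub, map_one, mul_sub, mul_one, sub_eq_iff_eq_add]
    exact Γ.star_u_split ψ N
  · intro x y hx hy ε hε
    obtain ⟨q₁, h1, h2, d₁, h3⟩ := hx (ε / 2) (by positivity)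
    obtain ⟨q₂, h4, h5, d₂, h6⟩ := hy (ε / 2) (by positivity)
    obtain ⟨q, hq, h7, h8, h9⟩ := Γ.proj_sup hτ h1 h4 1
    rw [mul_one] at h9
    refine ⟨q, hq, by linarith, (d₁ + d₂) * (1 - q), ?_⟩
    have e1 : (1 - q₁) * (1 - q) = 1 - q := by rw [sub_mul, h8, one_mul, sub_zero]
    have e2 : (1 - q₂) * (1 - q) = 1 - q := by rw [sub_mul, h9, one_mul, sub_zero]
    rw [map_mul, map_add, ← h3, ← h6, add_mul, add_mul, mul_assoc, mul_assoc, ← map_mul,
      ← map_mul, e1, e2]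
  · intro x y hx hy ε hε
    obtain ⟨q₁, h1, h2, d₁, h3⟩ := hy (ε / 2) (by positivity)
    obtain ⟨q₂, h4, h5, d₂, h6⟩ := hx (ε / 2) (by positivity)
    obtain ⟨q, hq, h7, h8, h9⟩ := Γ.proj_sup hτ h1 h4 d₁
    refine ⟨q, hq, by linarith, d₂ * (d₁ * (1 - q)), ?_⟩
    have e1 : (1 - q₁) * (1 - q) = 1 - q := by rw [sub_mul, h8, one_mul, sub_zero]
    have e2 : (1 - q₂) * (d₁ * (1 - q)) = d₁ * (1 - q) := by
      rw [sub_mul, ← mul_assoc q₂, h9, one_mul, sub_zero]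
    rw [map_mul, ← h6, mul_assoc, mul_assoc, ← map_mul, e2, map_mul, ← h3, mul_assoc, ← map_mul,
      e1]

include Γ in
theorem simple (hτ : TrSt τ) (hf : ∀ a, τ (star a * a) = 0 → a = 0) (J : TwoSidedIdeal B) :
    J = ⊥ ∨ J = ⊤ := by
  rw [or_iff_not_imp_left]
  intro hJ
  obtain ⟨a, ha, ha0⟩ : ∃ a ∈ J, a ≠ 0 := by
    by_contra h
    push Not at h
    exact hJ (eq_bot_iff.2 fun a ha => (TwoSidedIdeal.mem_bot _).2 (h a ha))
  set b := star a * a with hb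
  have hbJ : b ∈ J := J.mul_mem_left _ _ ha
  set t := ‖τ b‖ with ht
  have ht0 : 0 < t := norm_pos_iff.2 fun h => ha0 (hf a h)
  obtain ⟨x, hx, hxb⟩ := Metric.dense_iff.1 Γ.dense b (t / 4) (by positivity)
  rw [Metric.mem_ball, dist_eq_norm] at hx
  obtain ⟨q, hq, hqt, d, hd⟩ := Γ.small hτ x hxb ((t / 4 / (‖b‖ + 1)) ^ 2) (by positivity)
  obtain ⟨k, d₀, rfl⟩ := U.exh d
  have hq' : IsStarProjection (Γ.j (1 - q)) := hq.one_sub.map _
  have h1 : ‖b * Γ.j (1 - q) - Γ.j (U.ι k d₀)‖ < t / 4 := by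
    rw [← hd, ← sub_mul]
    refine ((norm_mul_le _ _).trans (mul_le_of_le_one_right (norm_nonneg _) hq'.norm_le)).trans_lt ?_
    rwa [norm_sub_rev]
  have h2 : ‖τ (b * Γ.j q)‖ ≤ t / 4 := by
    have h3 := hτ.bound b (Γ.j q)
    rw [← map_star, ← map_mul, hq.isSelfAdjoint.star_eq, hq.isIdempotentElem.eq] at h3
    refine (sq_le_sq₀ (norm_nonneg _) (by positivity)).1 (h3.trans ?_)
    refine (mul_le_mul_of_nonneg_left hqt (by positivity)).trans ?_
    rw [← mul_pow]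
    refine pow_le_pow_left₀ (by positivity) ?_ 2
    rw [mul_div_assoc', div_le_iff₀ (by positivity)]
    nlinarith [norm_nonneg b]
  have h3 : t / 2 ≤ ‖τ (Γ.j (U.ι k d₀))‖ := by
    have e1 : τ b = τ (Γ.j (U.ι k d₀)) + τ (b * Γ.j (1 - q) - Γ.j (U.ι k d₀)) +
        τ (b * Γ.j q) := by
      rw [← map_add, ← map_add, map_sub Γ.j, map_one, mul_sub, mul_one]
      congr 1
      abel
    have e2 := hτ.norm_le (b * Γ.j (1 - q) - Γ.j (U.ι k d₀))
    have e3 := norm_add₃_le (a := τ (Γ.j (U.ι k d₀)))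
      (b := τ (b * Γ.j (1 - q) - Γ.j (U.ι k d₀))) (c := τ (b * Γ.j q))
    rw [← e1] at e3
    linarith
  obtain ⟨i, hi⟩ : ∃ i, t / 4 < ‖d₀ i i‖ := by
    by_contra h
    push Not at h
    have e1 := congrArg norm (Γ.tr_ι hτ k d₀)
    rw [norm_mul, Complex.norm_natCast] at e1
    have e2 : ‖trace d₀‖ ≤ Fintype.card (I k) * (t / 4) := by
      refine (norm_sum_le _ _).trans ((Finset.sum_le_sum fun i _ => h i).trans ?_)
      rw [Finset.sum_const, Finset.card_univ, nsmul_eq_mul]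
    have h4 : (0 : ℝ) < Fintype.card (I k) := by exact_mod_cast Fintype.card_pos
    nlinarith
  let φ : A k →⋆ₐ[ℂ] B := Γ.j.comp (U.ι k)
  set E := φ (single i i 1) with hE
  have hEp : IsStarProjection E := by
    have := (single_proj i i).map φ
    rwa [star_single, single_mul_single_same, one_mul] at this
  set y := b * Γ.j (1 - q) with hy
  have hyJ : y ∈ J := J.mul_mem_right _ _ hbJ
  have hc0 : d₀ i i ≠ 0 := by
    intro h
    rw [h, norm_zero] at hi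
    linarith
  have hEd : E * φ d₀ * E = d₀ i i • E := by
    rw [hE, ← map_mul, ← map_mul, single_conj, map_smul]
  have hz : ‖(d₀ i i)⁻¹ • (E * (φ d₀ - y) * E)‖ < 1 := by
    rw [norm_smul, norm_inv, inv_mul_lt_iff₀ (norm_pos_iff.2 hc0), mul_one]
    refine lt_of_le_of_lt ?_ (h1.trans hi)
    refine (norm_mul_le _ _).trans ((mul_le_of_le_one_right (norm_nonneg _) hEp.norm_le).trans ?_)
    refine (norm_mul_le _ _).trans ((mul_le_of_le_one_left (norm_nonneg _) hEp.norm_le).trans ?_)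
    rw [norm_sub_rev]
    rfl
  have hEJ : E ∈ J := by
    have e1 : (Units.oneSub _ hz : B) * E = ((d₀ i i)⁻¹ • E) * y * E := by
      rw [Units.val_oneSub, sub_mul, one_mul, smul_mul_assoc, mul_assoc, hEp.isIdempotentElem.eq,
        mul_sub, sub_mul, hEd, smul_sub, smul_smul, inv_mul_cancel₀ hc0, one_smul, sub_sub_cancel,
        smul_mul_assoc, smul_mul_assoc]
    have e2 : E = ((Units.oneSub _ hz)⁻¹ : Bˣ) * (((d₀ i i)⁻¹ • E) * y * E) := by
      rw [← e1, Units.inv_mul_cancel_left]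
    rw [e2]
    exact J.mul_mem_left _ _ (J.mul_mem_right _ _ (J.mul_mem_left _ _ hyJ))
  rw [← TwoSidedIdeal.one_mem_iff, ← sum_single_mul φ i]
  refine sum_mem fun μ _ => ?_
  have : φ (single μ i 1) = φ (single μ i 1) * E := by
    rw [hE, ← map_mul, single_mul_single_same, one_mul]
  rw [this]
  exact J.mul_mem_right _ _ (J.mul_mem_left _ _ hEJ)

include Γ in
theorem infinite_dim [Nontrivial B] : ¬ FiniteDimensional ℂ B := by
  intro h
  let k := Module.finrank ℂ B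
  let φ : A k →⋆ₐ[ℂ] B := Γ.j.comp (U.ι k)
  have hinj : Function.Injective φ := RingHom.injective (φ : A k →+* B)
  have h1 := LinearMap.finrank_le_finrank_of_injective (f := φ.toAlgHom.toLinearMap) hinj
  rw [Module.finrank_matrix, Module.finrank_self, mul_one] at h1
  have h2 := card_I k
  change _ ≤ k at h1
  nlinarith

end Gen

end Crest.Agent.R120
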