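import Crest.Agent.R120.Tower
import Crest.Agent.R120.Hilb

/-!
One step of the construction of an excising sequence with an almost fixed vector.
-/

set_option autoImplicit false
set_option linter.unusedSectionVars false

noncomputable section

namespace Crest.Agent.R120

open Matrix
open scoped InnerProductSpace

variable {H : Type*} [NormedAddCommGroup H] [InnerProductSpace ℂ H] [CompleteSpace H]

theorem norm_le_norm_add_pos (c : H →L[ℂ] H) (x : H) : ‖x‖ ≤ ‖x + (star c * c) x‖ := by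
  have h1 : 0 ≤ (⟪x, (star c * c) x⟫_ℂ).re := by
    change 0 ≤ (⟪x, star c (c x)⟫_ℂ).re
    rw [ContinuousLinearMap.star_eq_adjoint, ContinuousLinearMap.adjoint_inner_right]
    exact inner_self_nonneg (𝕜 := ℂ)
  have h2 := @norm_add_sq ℂ _ _ _ _ x ((star c * c) x)
  simp only [RCLike.re_to_complex] at h2
  refine (sq_le_sq₀ (norm_nonneg _) (norm_nonneg _)).1 ?_
  nlinarith [sq_nonneg ‖(star c * c) x‖]

theorem polar_est {W c : H →L[ℂ] H} (hW : W ∈ unitary (H →L[ℂ] H)) {η ζ : H} {δ : ℝ}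
    (h1 : ‖(W * (star c * c)) η - ζ‖ ≤ δ) (h2 : ‖star (W * (star c * c)) ζ - η‖ ≤ δ) :
    ‖W η - ζ‖ ≤ 2 * δ := by
  have hW' : star W ∈ unitary (H →L[ℂ] H) := Unitary.star_mem hW
  have hWW : ∀ v, star W (W v) = v := fun v => by
    change (star W * W) v = v
    rw [hW.1]; rfl
  rw [← ContinuousLinearMap.norm_map_of_mem_unitary hW', map_sub] at h1 ⊢
  rw [star_mul, star_mul, star_star] at h2
  change ‖star W (W ((star c * c) η)) - star W ζ‖ ≤ δ at h1
  change ‖(star c * c) (star W ζ) - η‖ ≤ δ at h2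
  rw [hWW] at h1 ⊢
  refine (norm_le_norm_add_pos c _).trans ?_
  have : η - star W ζ + (star c * c) (η - star W ζ) =
      ((star c * c) η - star W ζ) - ((star c * c) (star W ζ) - η) := by
    rw [map_sub]; abel
  rw [this]
  exact (norm_sub_le _ _).trans (by linarith)

variable {R : Type*} [Ring R] [StarRing R] [Algebra ℂ R] [StarModule ℂ R]

theorem norm_apply_le_of_proj (ρ : R →⋆ₐ[ℂ] (H →L[ℂ] H)) {x : R}
    (hx : IsStarProjection (star x * x)) (v : H) : ‖ρ x v‖ ≤ ‖v‖ := by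
  have h1 : ‖ρ x‖ * ‖ρ x‖ ≤ 1 := by
    rw [← CStarRing.norm_star_mul_self, ← map_star, ← map_mul]
    exact (hx.map ρ).norm_le
  have h2 : ‖ρ x‖ ≤ 1 := by nlinarith [norm_nonneg (ρ x)]
  exact ((ρ x).le_opNorm v).trans (mul_le_of_le_one_left (norm_nonneg _) h2)

theorem norm_apply_le_of_proj' (ρ : R →⋆ₐ[ℂ] (H →L[ℂ] H)) {x : R}
    (hx : IsStarProjection x) (v : H) : ‖ρ x v‖ ≤ ‖v‖ :=
  norm_apply_le_of_proj ρ (by rwa [hx.isSelfAdjoint.star_eq, hx.isIdempotentElem.eq]) v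

theorem inner_rep (ρ : R →⋆ₐ[ℂ] (H →L[ℂ] H)) (x y : R) (v w : H) :
    ⟪ρ x v, ρ y w⟫_ℂ = ⟪v, ρ (star x * y) w⟫_ℂ := by
  rw [map_mul, map_star, ContinuousLinearMap.star_eq_adjoint]
  change _ = ⟪v, ContinuousLinearMap.adjoint (ρ x) (ρ y w)⟫_ℂ
  rw [ContinuousLinearMap.adjoint_inner_right]

theorem rep_mul (ρ : R →⋆ₐ[ℂ] (H →L[ℂ] H)) (x y : R) (v : H) : ρ (x * y) v = ρ x (ρ y v) := by
  rw [map_mul]; rfl

theorem corner_unitary {w p : R} (hw : w ∈ unitary R) (hp : IsStarProjection p)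
    (h : Commute p w) : w * p + (1 - p) ∈ unitary R := by
  have h' : Commute p (star w) := by
    have := h.star_star
    rwa [hp.isSelfAdjoint.star_eq] at this
  have h1 := hp.isIdempotentElem.eq
  have hs : star (w * p + (1 - p)) = star w * p + (1 - p) := by
    rw [star_add, star_mul, star_sub, star_one, hp.isSelfAdjoint.star_eq, h'.eq]
  have key : ∀ a b : R, a * b = 1 → Commute p b →
      (a * p + (1 - p)) * (b * p + (1 - p)) = 1 := by
    intro a b hab hb
    have e1 : a * p * (b * p) = p := by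
      rw [mul_assoc, ← mul_assoc p, hb.eq, mul_assoc, h1, ← mul_assoc, hab, one_mul]
    have e2 : a * p * (1 - p) = 0 := by rw [mul_assoc, mul_sub, mul_one, h1, sub_self, mul_zero]
    have e3 : (1 - p) * (b * p) = 0 := by
      rw [← hb.eq, ← mul_assoc, sub_mul, one_mul, h1, sub_self, zero_mul]
    have e4 : (1 - p) * (1 - p) = 1 - p := hp.one_sub.isIdempotentElem.eq
    rw [add_mul, mul_add, mul_add, e1, e2, e3, e4]
    abel
  exact ⟨by rw [hs]; exact key _ _ hw.1 h, by rw [hs]; exact key _ _ hw.2 h'⟩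

theorem single_proj {n : Type*} [Fintype n] [DecidableEq n] (i j : n) :
    IsStarProjection (star (single i j (1 : ℂ)) * single i j (1 : ℂ)) := by
  rw [star_single, single_mul_single_same, one_mul]
  exact ⟨by rw [IsIdempotentElem, single_mul_single_same, one_mul], star_single _ _⟩

/-- the column matrix -/
def col {l : ℕ} (c : I l → I l → ℂ) : A (l + 1) :=
  ∑ μ, ∑ ν, c μ ν • single (pr μ ν) (o (l + 1)) (1 : ℂ)

theorem col_mul_f {l : ℕ} (c : I l → I l → ℂ) : col c * f (l + 1) = col c := by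
  simp only [col, Finset.sum_mul, smul_mul_assoc, f, single_mul_single_same, mul_one]

theorem star_col_mul {l : ℕ} (c : I l → I l → ℂ) :
    star (col c) * col c = (∑ μ, ∑ ν, star (c μ ν) * c μ ν) • f (l + 1) := by
  have h : ∀ μ ν, single (o (l + 1)) (pr μ ν) (1 : ℂ) * col c = c μ ν • f (l + 1) := by
    intro μ ν
    simp only [col, Finset.mul_sum, mul_smul_comm]
    rw [Finset.sum_eq_single μ, Finset.sum_eq_single ν]
    · rw [single_mul_single_same, mul_one, f]
    · intro b _ hb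
      rw [single_mul_single_of_ne, smul_zero]
      exact fun h => hb (pr_inj.1 h).2.symm
    · simp
    · intro b _ hb
      refine Finset.sum_eq_zero fun ν' _ => ?_
      rw [single_mul_single_of_ne, smul_zero]
      exact fun h => hb (pr_inj.1 h).1.symm
    · simp
  conv_lhs => rw [col]
  simp only [star_sum, star_smul, star_single, Finset.sum_mul, smul_mul_assoc, Finset.sum_smul]
  refine Finset.sum_congr rfl fun μ _ => Finset.sum_congr rfl fun ν _ => ?_
  rw [← col, h, smul_smul]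

theorem emb_mul_col {l : ℕ} (c : I l → I l → ℂ) (g : A l)
    (h : ∀ μ ν, ∑ μ', g μ μ' * c μ' ν = c μ ν) : emb l g * col c = col c := by
  have h1 : ∀ μ' ν, emb l g * single (pr μ' ν) (o (l + 1)) (1 : ℂ) =
      ∑ μ, g μ μ' • single (pr μ ν) (o (l + 1)) (1 : ℂ) := by
    intro μ' ν
    rw [← emb_single_mul μ' μ', ← mul_assoc, ← map_mul]
    have : g * single μ' μ' (1 : ℂ) = ∑ μ, g μ μ' • single μ μ' (1 : ℂ) := by
      ext i j
      by_cases hj : j = μ'
      · subst hj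
        simp [Matrix.sum_apply, single_apply]
      · simp [Matrix.sum_apply, hj, Ne.symm hj]
    rw [this, map_sum, Finset.sum_mul]
    refine Finset.sum_congr rfl fun μ _ => ?_
    rw [map_smul, smul_mul_assoc, emb_single_mul]
  conv_lhs => rw [col]
  simp only [Finset.mul_sum, mul_smul_comm, h1, Finset.smul_sum, smul_smul]
  rw [col, Finset.sum_comm]
  conv_rhs => rw [Finset.sum_comm]
  refine Finset.sum_congr rfl fun ν _ => ?_
  rw [Finset.sum_comm]
  refine Finset.sum_congr rfl fun μ _ => ?_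
  rw [← Finset.sum_smul, ← h μ ν]
  simp only [mul_comm]

namespace Sys

variable {D : Type} [Ring D] [StarRing D] [Algebra ℂ D] [StarModule ℂ D] (U : Sys D)

theorem exists_fixed [Nontrivial H] (ρ : D →⋆ₐ[ℂ] (H →L[ℂ] H)) (m : ℕ) :
    ∃ κ : H, ‖κ‖ = 1 ∧ ρ (U.F m) κ = κ := by
  have hinj : Function.Injective (ρ.comp (U.ι m)) :=
    RingHom.injective (ρ.comp (U.ι m) : A m →+* (H →L[ℂ] H))
  have h0 : ρ (U.F m) ≠ 0 := by
    intro h
    have h1 : f m = 0 := hinj (by rw [map_zero]; exact h)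
    have := congrFun (congrFun h1 (o m)) (o m)
    simp [f] at this
  obtain ⟨v, hv⟩ : ∃ v, ρ (U.F m) v ≠ 0 := by
    by_contra h
    push Not at h
    exact h0 (ContinuousLinearMap.ext h)
  refine ⟨(‖ρ (U.F m) v‖⁻¹ : ℂ) • ρ (U.F m) v, norm_smul_inv_norm hv, ?_⟩
  rw [map_smul, ← rep_mul, (U.F_proj m).isIdempotentElem.eq]

/-- moving the components of a vector onto a product vector by a unitary commuting with level `l` -/
theorem move {ρ : D →⋆ₐ[ℂ] (H →L[ℂ] H)} (hρ : Irr ρ) [Nontrivial D] (l : ℕ) (η ζ : I l → H)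
    (V : H →L[ℂ] H) (hV : ∀ μ, V (η μ) = ζ μ) (hV' : ∀ μ, star V (ζ μ) = η μ)
    (hη : ∀ μ, ρ (U.F l) (η μ) = η μ) (hζ : ∀ μ, ρ (U.F l) (ζ μ) = ζ μ)
    (hη1 : ∀ μ, ‖η μ‖ ≤ 1) {δ : ℝ} (hδ : 0 < δ) :
    ∃ w ∈ unitary D, (∀ x, Commute (U.ι l x) w) ∧ ∀ μ, ‖ρ w (η μ) - ζ μ‖ ≤ 4 * δ := by
  obtain ⟨a, ha⟩ := star_dens hρ η ζ V hδ
  have hζ1 : ∀ μ, ‖ζ μ‖ ≤ 1 := by
    intro μ
    have h1 : ⟪ζ μ, ζ μ⟫_ℂ = ⟪η μ, η μ⟫_ℂ := by
      conv_lhs => rw [← hV μ, ← ContinuousLinearMap.adjoint_inner_right, hV,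
        ← ContinuousLinearMap.star_eq_adjoint, hV']
    rw [@norm_eq_sqrt_re_inner ℂ, h1, ← @norm_eq_sqrt_re_inner ℂ]
    exact hη1 μ
  obtain ⟨t, ht0, ht, w, hw, c, h1, h2⟩ := U.polar (amp (U.ι l) (o l) a) l
    (commute_amp _ _ _) hδ
  have key : ∀ (y : D) (v v' : H), ρ (U.F l) v = v → ρ (U.F l) v' = v' → ‖v‖ ≤ 1 →
      ‖ρ y v - v'‖ < δ → ‖ρ (amp (U.ι l) (o l) y + (t : ℂ) • 1) v - v'‖ ≤ 2 * δ := by
    intro y v v' hv hv' hv1 hy
    have e1 : ρ (amp (U.ι l) (o l) y) v = ρ (U.F l) (ρ y v) := by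
      conv_lhs => rw [← hv, ← rep_mul, F, f, amp_mul, ← f, ← F, rep_mul, hv, rep_mul]
    have e2 : ρ (amp (U.ι l) (o l) y + (t : ℂ) • 1) v - v' =
        ρ (U.F l) (ρ y v - v') + (t : ℂ) • v := by
      rw [map_add, map_smul, map_one, map_sub, hv']
      change ρ (amp (U.ι l) (o l) y) v + (t : ℂ) • v - v' = _
      rw [e1]; abel
    rw [e2]
    refine (norm_add_le _ _).trans ?_
    have e3 := norm_apply_le_of_proj' ρ (U.F_proj l) (ρ y v - v')
    rw [norm_smul, Complex.norm_real, Real.norm_of_nonneg ht0.le]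
    nlinarith
  refine ⟨w, hw, h2, fun μ => ?_⟩
  have e1 := key a (η μ) (ζ μ) (hη μ) (hζ μ) (hη1 μ) (hV μ ▸ (ha μ).1)
  have e2 := key (star a) (ζ μ) (η μ) (hζ μ) (hη μ) (hζ1 μ) (hV' μ ▸ (ha μ).2)
  have e3 : amp (U.ι l) (o l) (star a) + (t : ℂ) • 1 =
      star (amp (U.ι l) (o l) a + (t : ℂ) • 1) := by
    rw [star_add, star_amp, star_smul, star_one, Complex.star_def, Complex.conj_ofReal]
  rw [e3, map_star] at e2
  rw [h1, map_mul, map_mul, map_star] at e1 e2
  have := polar_est (Unitary.map_mem ρ hw) e1 e2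
  linarith

theorem step {ρ : D →⋆ₐ[ℂ] (H →L[ℂ] H)} (hρ : Irr ρ) {k l : ℕ} (hkl : k ≤ l) (ζ : H)
    (hζ : ‖ζ‖ = 1) (hfix : ρ (U.F k) ζ = ζ) {ε : ℝ} (hε : 0 < ε) :
    ∃ w ∈ unitary D, w * (1 - U.F k) = 1 - U.F k ∧
      (∀ a : A l, ∃ c : ℂ,
        U.F (l + 1) * (w * U.ι l a * star w) * U.F (l + 1) = c • U.F (l + 1)) ∧
      ‖ρ (U.F (l + 1)) (ρ w ζ) - ρ w ζ‖ ≤ ε := by
  have hζ0 : ζ ≠ 0 := by
    intro h; rw [h, norm_zero] at hζ; exact zero_ne_one hζ
  have : Nontrivial H := ⟨ζ, 0, hζ0⟩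
  have : Nontrivial D := (ρ : D →+* (H →L[ℂ] H)).domain_nontrivial
  obtain ⟨κ, hκ1, hκ⟩ := U.exists_fixed ρ (l + 1)
  let η : I l → H := fun μ => ρ (U.ι l (single (o l) μ 1)) ζ
  let κ' : I l → H := fun ν => ρ (U.ι (l + 1) (single (pr (o l) ν) (o (l + 1)) 1)) κ
  obtain ⟨b, hb⟩ := exists_parseval η
  let c : I l → I l → ℂ := fun μ ν => ⟪b ν, η μ⟫_ℂ
  let V : H →L[ℂ] H := ∑ ν, InnerProductSpace.rankOne ℂ (κ' ν) (b ν)
  let ζ' : I l → H := fun μ => ∑ ν, c μ ν • κ' ν
  have hκ' : ∀ ν ν', ⟪κ' ν, κ' ν'⟫_ℂ = if ν = ν' then 1 else 0 := by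
    intro ν ν'
    simp only [κ']
    rw [inner_rep, ← map_star, ← map_mul, star_single]
    split_ifs with h
    · subst h
      rw [single_mul_single_same, one_mul, ← f, ← F, hκ, inner_self_eq_norm_sq_to_K, hκ1]
      simp
    · rw [single_mul_single_of_ne _ _ _ _ (fun h' => h (pr_inj.1 h').2)]
      simp
  have hV : ∀ μ, V (η μ) = ζ' μ := by
    intro μ
    simp [V, ζ', c]
  have hV' : ∀ μ, star V (ζ' μ) = η μ := by
    intro μ
    simp only [V, star_sum, ContinuousLinearMap.star_eq_adjoint, InnerProductSpace.adjoint_rankOne,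
      _root_.sum_apply, InnerProductSpace.rankOne_apply, ζ', inner_sum,
      inner_smul_right, hκ', mul_ite, mul_one, mul_zero, Finset.sum_ite_eq, Finset.mem_univ,
      if_true]
    exact hb μ
  have hη : ∀ μ, ρ (U.F l) (η μ) = η μ := by
    intro μ
    simp only [η]
    rw [← rep_mul, F, ← map_mul, f, single_mul_single_same, one_mul]
  have hκ'' : ∀ μ ν, ρ (U.ι l (single μ (o l) 1)) (κ' ν) =
      ρ (U.ι (l + 1) (single (pr μ ν) (o (l + 1)) 1)) κ := by
    intro μ ν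
    simp only [κ']
    rw [← rep_mul, ← U.compat, ← map_mul, emb_single_mul]
  have hζ' : ∀ μ, ρ (U.F l) (ζ' μ) = ζ' μ := by
    intro μ
    simp only [ζ', map_sum, map_smul]
    refine Finset.sum_congr rfl fun ν _ => ?_
    rw [F, f, hκ'']
  have hη1 : ∀ μ, ‖η μ‖ ≤ 1 := by
    intro μ
    rw [← hζ]
    refine norm_apply_le_of_proj ρ ?_ _
    rw [← map_star, ← map_mul]
    exact (single_proj _ _).map _
  have hN : (0 : ℝ) < Fintype.card (I l) := by exact_mod_cast Fintype.card_pos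
  obtain ⟨w', hw', hc', hest⟩ := U.move hρ l η ζ' V hV hV' hη hζ' hη1
    (δ := ε / (8 * Fintype.card (I l))) (by positivity)
  -- the column
  have hsum : ∑ μ, ρ (U.ι l (single μ (o l) 1)) (η μ) = ζ := by
    simp only [η, ← rep_mul]
    rw [← _root_.sum_apply, ← map_sum, sum_single_mul, map_one]
    rfl
  have hcol : ρ (U.ι (l + 1) (col c)) κ = ∑ μ, ρ (U.ι l (single μ (o l) 1)) (ζ' μ) := by
    simp only [col, map_sum, map_smul, ζ', hκ'', _root_.sum_apply, _root_.smul_apply]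
  have hest2 : ‖ρ w' ζ - ρ (U.ι (l + 1) (col c)) κ‖ ≤ ε / 2 := by
    rw [hcol]
    conv_lhs => rw [← hsum, map_sum, ← Finset.sum_sub_distrib]
    refine (norm_sum_le _ _).trans ?_
    refine (Finset.sum_le_sum (g := fun _ => 4 * (ε / (8 * Fintype.card (I l)))) ?_).trans ?_
    · intro μ _
      rw [← rep_mul, ← (hc' _).eq, rep_mul, ← map_sub]
      refine (norm_apply_le_of_proj ρ ?_ _).trans (hest μ)
      rw [← map_star, ← map_mul]
      exact (single_proj _ _).map _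
    · rw [Finset.sum_const, Finset.card_univ, nsmul_eq_mul]
      apply le_of_eq
      field_simp
      ring
  have hcc : ∑ μ, ∑ ν, star (c μ ν) * c μ ν = 1 := by
    have h1 : ∀ μ, ∑ ν, star (c μ ν) * c μ ν = ⟪η μ, η μ⟫_ℂ := by
      intro μ
      conv_rhs => enter [2]; rw [← hb μ]
      rw [sum_inner]
      refine Finset.sum_congr rfl fun ν _ => ?_
      rw [inner_smul_left]
      rfl
    simp only [h1, η, inner_rep, ← map_star, star_single]
    rw [← inner_sum, ← _root_.sum_apply, ← map_sum, sum_single_mul, map_one]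
    change ⟪ζ, ζ⟫_ℂ = 1
    rw [inner_self_eq_norm_sq_to_K, hζ]
    simp
  have hfc : f (l + 1) * col c = (col c) (o (l + 1)) (o (l + 1)) • f (l + 1) := by
    conv_lhs => rw [← col_mul_f, ← mul_assoc, f, single_conj, ← f]
  obtain ⟨θ, s, hH, hs, hHC⟩ := exists_reflection (f (l + 1)) (col c) _
    (f_proj _).isSelfAdjoint.star_eq (f_proj _).isIdempotentElem.eq
    (by rw [star_col_mul, hcc, one_smul]) (col_mul_f c) hfc
  set v := col c - θ • f (l + 1) with hv
  set Hh := 1 - s • (v * star v) with hHh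
  clear_value Hh v
  let g : A (l + 1) := emb l (embLE hkl (f k))
  have hg : U.ι (l + 1) g = U.F k := by rw [U.compat, U.ι_embLE, F]
  have hgp : IsStarProjection g := ((f_proj k).map _).map _
  have hgf : g * f (l + 1) = f (l + 1) := by
    apply U.inj
    rw [map_mul, hg, ← F, U.F_mul_F' (by omega)]
  have hgc : g * col c = col c := by
    refine emb_mul_col c _ fun μ ν => ?_
    simp only [c, η]
    conv_rhs => rw [← hfix, ← rep_mul, F, ← U.ι_embLE hkl, ← map_mul]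
    have : single (o l) μ (1 : ℂ) * embLE hkl (f k) =
        ∑ μ', embLE hkl (f k) μ μ' • single (o l) μ' (1 : ℂ) := by
      ext i j
      by_cases hi : i = o l
      · subst hi
        simp [Matrix.sum_apply, single_apply]
      · simp [Matrix.sum_apply, hi, Ne.symm hi]
    rw [this]
    simp only [map_sum, map_smul, _root_.sum_apply, _root_.smul_apply, inner_sum,
      inner_smul_right]
  have hgv : g * v = v := by rw [hv, mul_sub, hgc, mul_smul_comm, hgf]
  have hvg : star v * g = star v := by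
    have := congrArg star hgv
    rwa [star_mul, hgp.isSelfAdjoint.star_eq] at this
  have hH1 : Hh * (1 - g) = 1 - g := by
    rw [hHh, sub_mul, one_mul, smul_mul_assoc, mul_assoc, mul_sub, mul_one, hvg]
    simp
  have hH2 : g * Hh = Hh * g := by
    rw [hHh, sub_mul, mul_sub, smul_mul_assoc, mul_smul_comm, mul_assoc, hvg, ← mul_assoc, hgv,
      one_mul, mul_one]
  have hcF : Commute (U.F k) w' := by
    rw [F, ← U.ι_embLE hkl]
    exact hc' _
  have hFF := (U.F_proj k).isIdempotentElem.eq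
  have hu := corner_unitary hw' (U.F_proj k) hcF
  refine ⟨U.ι (l + 1) Hh * (w' * U.F k + (1 - U.F k)),
    mul_mem (Unitary.map_mem (U.ι (l + 1)) hH) hu, ?_, ?_, ?_⟩
  · rw [mul_assoc, add_mul, (U.F_proj k).one_sub.isIdempotentElem.eq, mul_assoc, mul_sub, mul_one,
      hFF, sub_self, mul_zero, zero_add, ← hg, ← map_one (U.ι (l + 1)), ← map_sub, ← map_mul, hH1]
  · intro a
    have e1 : U.F (l + 1) * (U.ι (l + 1) Hh * (w' * U.F k + (1 - U.F k))) =
        U.F (l + 1) * (U.ι (l + 1) (Hh * g)) * w' := by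
      conv_lhs => rw [← U.F_mul_F (show k ≤ l + 1 by omega), mul_assoc, ← mul_assoc (U.F k),
        ← hg, ← map_mul, hH2, map_mul, hg, mul_assoc, mul_add, ← hcF.eq, ← mul_assoc (U.F k), hFF,
        mul_sub, mul_one, hFF, sub_self, add_zero]
      rw [map_mul, hg, mul_assoc, mul_assoc]
    have e2 := congrArg star e1
    rw [star_mul, star_mul (U.F (l + 1) * _), star_mul (U.F (l + 1)), star_F] at e2
    refine ⟨(Hh * g * emb l a * star (Hh * g)) (o (l + 1)) (o (l + 1)), ?_⟩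
    rw [← U.F_conj, ← mul_assoc, ← mul_assoc, e1, mul_assoc, e2, map_mul (U.ι (l + 1)) _ (star _),
      map_mul (U.ι (l + 1)) _ (emb l a), U.compat, map_star]
    simp only [mul_assoc]
    rw [← mul_assoc w', ← (hc' a).eq, mul_assoc, ← mul_assoc w', hw'.2, one_mul]
  · have e1 : ρ (U.ι (l + 1) Hh * (w' * U.F k + (1 - U.F k))) ζ =
        ρ (U.ι (l + 1) Hh) (ρ w' ζ) := by
      rw [rep_mul]
      congr 1
      rw [map_add, map_sub, map_one]
      change ρ (w' * U.F k) ζ + (ζ - ρ (U.F k) ζ) = _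
      rw [rep_mul, hfix, sub_self, add_zero]
    have e2 : ρ (U.ι (l + 1) Hh) (ρ (U.ι (l + 1) (col c)) κ) = θ • κ := by
      rw [← rep_mul, ← map_mul, hHC, map_smul, map_smul, ← F, _root_.smul_apply, hκ]
    have e3 : ‖ρ (U.ι (l + 1) Hh) (ρ w' ζ) - θ • κ‖ ≤ ε / 2 := by
      rw [← e2, ← map_sub, ContinuousLinearMap.norm_map_of_mem_unitary
        (Unitary.map_mem ρ (Unitary.map_mem (U.ι (l + 1)) hH))]
      exact hest2
    rw [e1]
    set y := ρ (U.ι (l + 1) Hh) (ρ w' ζ)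
    have e4 : ρ (U.F (l + 1)) y - y = ρ (U.F (l + 1)) (y - θ • κ) - (y - θ • κ) := by
      rw [map_sub, map_smul, hκ]; abel
    rw [e4]
    refine (norm_sub_le _ _).trans ?_
    have := norm_apply_le_of_proj' ρ (U.F_proj (l + 1)) (y - θ • κ)
    linarith

end Sys

end Crest.Agent.R120
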