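import Crest.Agent.R120.Mat

/-!
The tower of matrix algebras `A (k+1) = A k ⊗ A k` and star algebras exhausted by it.
-/

set_option autoImplicit false
set_option linter.unusedSectionVars false

noncomputable section

namespace Crest.Agent.R120

open Matrix
open scoped Kronecker

/-- index sets -/
def I : ℕ → Type
  | 0 => Bool
  | k + 1 => I k × I k

instance instFintypeI : ∀ k, Fintype (I k)
  | 0 => inferInstanceAs (Fintype Bool)
  | k + 1 => @instFintypeProd _ _ (instFintypeI k) (instFintypeI k)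

instance instDecEqI : ∀ k, DecidableEq (I k)
  | 0 => inferInstanceAs (DecidableEq Bool)
  | k + 1 => @instDecidableEqProd _ _ (instDecEqI k) (instDecEqI k)

/-- base points -/
def o : ∀ k, I k
  | 0 => false
  | k + 1 => (o k, o k)

instance (k : ℕ) : Nonempty (I k) := ⟨o k⟩

/-- pairing -/
def pr {k : ℕ} (μ ν : I k) : I (k + 1) := (μ, ν)

theorem o_succ (k : ℕ) : o (k + 1) = pr (o k) (o k) := rfl

theorem pr_inj {k : ℕ} {μ ν μ' ν' : I k} : pr μ ν = pr μ' ν' ↔ μ = μ' ∧ ν = ν' := Prod.mk.injEq _ _ _ _ ▸ Iff.rfl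

theorem sum_pr {k : ℕ} {M : Type*} [AddCommMonoid M] (f : I (k + 1) → M) :
    ∑ x, f x = ∑ μ, ∑ ν, f (pr μ ν) :=
  Fintype.sum_prod_type (α₁ := I k) (α₂ := I k) f

theorem card_I (k : ℕ) : k + 2 ≤ Fintype.card (I k) := by
  induction k with
  | zero => exact le_of_eq (Fintype.card_bool).symm
  | succ k ih =>
    have : Fintype.card (I (k + 1)) = Fintype.card (I k) * Fintype.card (I k) :=
      Fintype.card_prod (I k) (I k)
    rw [this]
    nlinarith

/-- the matrix algebras -/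
abbrev A (k : ℕ) : Type := Matrix (I k) (I k) ℂ

/-- `a ↦ a ⊗ 1` -/
def embG {n : Type} [Fintype n] [DecidableEq n] :
    Matrix n n ℂ →⋆ₐ[ℂ] Matrix (n × n) (n × n) ℂ where
  toFun a := a ⊗ₖ (1 : Matrix n n ℂ)
  map_one' := one_kronecker_one
  map_mul' a b := by rw [← mul_kronecker_mul, one_mul]
  map_zero' := zero_kronecker _
  map_add' a b := add_kronecker _ _ _
  commutes' c := by
    rw [Algebra.algebraMap_eq_smul_one, Algebra.algebraMap_eq_smul_one, smul_kronecker,
      one_kronecker_one]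
  map_star' a := by
    rw [star_eq_conjTranspose, star_eq_conjTranspose, conjTranspose_kronecker, conjTranspose_one]

theorem embG_single_mul {n : Type} [Fintype n] [DecidableEq n] (μ μ' ν : n) (x : n × n) :
    embG (single μ μ' (1 : ℂ)) * single (μ', ν) x (1 : ℂ) = single (μ, ν) x (1 : ℂ) := by
  obtain ⟨x1, x2⟩ := x
  have h1 : ∀ a : n, (single (a, ν) (x1, x2) (1 : ℂ) : Matrix (n × n) (n × n) ℂ) =
      single a x1 (1 : ℂ) ⊗ₖ single ν x2 (1 : ℂ) := by
    intro a
    rw [single_kronecker_single, one_mul]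
  rw [h1, h1]
  change (single μ μ' (1 : ℂ) ⊗ₖ (1 : Matrix n n ℂ)) * _ = _
  rw [← mul_kronecker_mul, single_mul_single_same, one_mul, one_mul]

/-- the connecting maps -/
def emb (k : ℕ) : A k →⋆ₐ[ℂ] A (k + 1) := embG (n := I k)

theorem emb_single_mul {k : ℕ} (μ μ' ν : I k) (x : I (k + 1)) :
    emb k (single μ μ' (1 : ℂ)) * single (pr μ' ν) x (1 : ℂ) = single (pr μ ν) x (1 : ℂ) :=
  embG_single_mul (n := I k) μ μ' ν x

/-- the minimal projection at the base point -/
def f (k : ℕ) : A k := single (o k) (o k) 1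

theorem f_proj (k : ℕ) : IsStarProjection (f k) :=
  ⟨by rw [IsIdempotentElem, f, single_mul_single_same, one_mul], star_single _ _⟩

theorem emb_f_mul (k : ℕ) : emb k (f k) * f (k + 1) = f (k + 1) :=
  emb_single_mul _ _ _ _

/-- iterated connecting maps -/
def embLE {k l : ℕ} (h : k ≤ l) : A k →⋆ₐ[ℂ] A l :=
  Nat.leRecOn (C := fun l => A k →⋆ₐ[ℂ] A l) h (fun {l} φ => (emb l).comp φ) (StarAlgHom.id ℂ _)

theorem embLE_self (k : ℕ) (a : A k) : embLE le_rfl a = a := by
  rw [embLE, Nat.leRecOn_self]; rfl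

theorem embLE_succ {k l : ℕ} (h : k ≤ l) (a : A k) :
    embLE (Nat.le_succ_of_le h) a = emb l (embLE h a) := by
  rw [embLE, Nat.leRecOn_succ h]; rfl

theorem embLE_emb {k l : ℕ} (h : k + 1 ≤ l) (a : A k) :
    embLE h (emb k a) = embLE (Nat.le_of_succ_le h) a := by
  induction l, h using Nat.le_induction with
  | base => rw [embLE_self, embLE_succ le_rfl, embLE_self]
  | succ l h ih => rw [embLE_succ h, ih, embLE_succ (Nat.le_of_succ_le h)]

/-- a star algebra that is the union of the tower -/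
structure Sys (D : Type) [Ring D] [StarRing D] [Algebra ℂ D] where
  /-- the maps -/
  ι : ∀ k, A k →⋆ₐ[ℂ] D
  compat : ∀ k a, ι (k + 1) (emb k a) = ι k a
  exh : ∀ d, ∃ k a, ι k a = d

namespace Sys

variable {D : Type} [Ring D] [StarRing D] [Algebra ℂ D] [StarModule ℂ D] (U : Sys D)

theorem ι_embLE {k l : ℕ} (h : k ≤ l) (a : A k) : U.ι l (embLE h a) = U.ι k a := by
  induction l, h using Nat.le_induction with
  | base => rw [embLE_self]
  | succ l h ih => rw [embLE_succ h, U.compat, ih]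

theorem exh_ge (d : D) (l : ℕ) : ∃ m, l ≤ m ∧ ∃ a, U.ι m a = d := by
  obtain ⟨k, a, rfl⟩ := U.exh d
  exact ⟨max k l, le_max_right _ _, embLE (le_max_left _ _) a, U.ι_embLE _ _⟩

theorem lift {d : D} {k l : ℕ} (h : k ≤ l) (hd : ∃ a, U.ι k a = d) : ∃ a, U.ι l a = d := by
  obtain ⟨a, rfl⟩ := hd
  exact ⟨embLE h a, U.ι_embLE _ _⟩

theorem inj [Nontrivial D] (k : ℕ) : Function.Injective (U.ι k) :=
  RingHom.injective (U.ι k : A k →+* D)

/-- the decreasing projections -/
def F (k : ℕ) : D := U.ι k (f k)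

theorem F_proj (k : ℕ) : IsStarProjection (U.F k) := (f_proj k).map (U.ι k)

theorem star_F (k : ℕ) : star (U.F k) = U.F k := (U.F_proj k).isSelfAdjoint.star_eq

theorem F_mul_F' {k l : ℕ} (h : k ≤ l) : U.F k * U.F l = U.F l := by
  induction l, h using Nat.le_induction with
  | base => exact (U.F_proj k).isIdempotentElem
  | succ l h ih =>
    have h1 : U.F l * U.F (l + 1) = U.F (l + 1) := by
      rw [F, ← U.compat, F, ← map_mul, emb_f_mul]
    rw [← h1, ← mul_assoc, ih]

theorem F_mul_F {k l : ℕ} (h : k ≤ l) : U.F l * U.F k = U.F l := by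
  have := congrArg star (U.F_mul_F' h)
  rwa [star_mul, star_F, star_F] at this

theorem F_conj (k : ℕ) (a : A k) : U.F k * U.ι k a * U.F k = a (o k) (o k) • U.F k := by
  rw [F, ← map_mul, ← map_mul, f, single_conj, map_smul]

theorem polar [Nontrivial D] (a : D) (l : ℕ) (h : ∀ x, Commute (U.ι l x) a) {δ : ℝ} (hδ : 0 < δ) :
    ∃ t : ℝ, 0 < t ∧ t < δ ∧ ∃ w ∈ unitary D, ∃ c : D,
      a + (t : ℂ) • 1 = w * (star c * c) ∧ ∀ x, Commute (U.ι l x) w := by
  obtain ⟨m, hm, a₀, rfl⟩ := U.exh_ge a l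
  obtain ⟨t, ht0, ht, w, hw, c, h1, h2⟩ := polar_matrix a₀ hδ
  have h3 : ∀ x, Commute (embLE hm x) a₀ := by
    intro x
    apply U.inj m
    rw [map_mul, map_mul, ι_embLE]
    exact h x
  refine ⟨t, ht0, ht, U.ι m w, Unitary.map_mem (U.ι m) hw, U.ι m c, ?_, fun x => ?_⟩
  · rw [← map_star, ← map_mul, ← map_mul, ← h1, map_add, map_smul, map_one]
  · rw [← U.ι_embLE hm]
    refine (h2 _ (h3 x) ?_).map (U.ι m)
    have := (h3 (star x)).star_star
    rwa [← map_star, star_star] at this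

end Sys

end Crest.Agent.R120
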