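import Crest.Agent.R120.Key

/-!
Uniqueness of the irreducible representation.
-/

set_option autoImplicit false
set_option linter.unusedSectionVars false

noncomputable section

namespace Crest.Agent.R120

open Filter Topology
open scoped InnerProductSpace

variable {D : Type} [Ring D] [StarRing D] [Algebra ℂ D] [StarModule ℂ D] {U : Sys D}
variable {B : Type} [CStarAlgebra B]

/-- asymptotic orthogonality of two good sequences -/
def Orth (j : D →⋆ₐ[ℂ] B) (ψ χ : Good U) : Prop :=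
  ∀ d, Tendsto (fun n => ‖j (ψ.e n * d * χ.e n)‖) atTop (𝓝 0)

theorem Orth.symm {j : D →⋆ₐ[ℂ] B} {ψ χ : Good U} (h : Orth j ψ χ) : Orth j χ ψ := by
  intro d
  refine (h (star d)).congr fun n => ?_
  rw [← norm_star, ← map_star, star_mul, star_mul, star_star, Good.star_e, Good.star_e, mul_assoc]

theorem exists_maximal (U : Sys D) (j : D →⋆ₐ[ℂ] B) :
    ∃ Ψ : Set (Good U), U.base ∈ Ψ ∧ Ψ.Pairwise (Orth j) ∧
      ∀ χ, χ ∉ Ψ → ∃ ψ ∈ Ψ, ¬ Orth j ψ χ := by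
  obtain ⟨Ψ, h1, h2⟩ := zorn_subset_nonempty {Ψ : Set (Good U) | Ψ.Pairwise (Orth j)}
    (fun c hc hchain _ => ⟨⋃₀ c, (Set.pairwise_sUnion hchain.directedOn).2 hc,
      fun s hs => Set.subset_sUnion_of_mem hs⟩) {U.base} (Set.pairwise_singleton _ _)
  refine ⟨Ψ, h1 rfl, h2.1, fun χ hχ => ?_⟩
  by_contra h
  push Not at h
  have h3 : (insert χ Ψ).Pairwise (Orth j) :=
    Set.Pairwise.insert h2.1 fun ψ hψ _ => ⟨(h ψ hψ).symm, h ψ hψ⟩
  exact hχ (h2.2 h3 (Set.subset_insert _ _) (Set.mem_insert _ _))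

/-- the data of the algebra generated by the tower and the unitaries -/
structure Gen (U : Sys D) (B : Type) [CStarAlgebra B] where
  /-- the inclusion -/
  j : D →⋆ₐ[ℂ] B
  /-- the maximal family -/
  Ψ : Set (Good U)
  base_mem : U.base ∈ Ψ
  pair : Ψ.Pairwise (Orth j)
  maxl : ∀ χ, χ ∉ Ψ → ∃ ψ ∈ Ψ, ¬ Orth j ψ χ
  /-- the unitaries -/
  u : Ψ → B
  u_unit : ∀ ψ, u ψ ∈ unitary B
  u_base : u ⟨U.base, base_mem⟩ = 1
  u_coh : ∀ (ψ : Ψ) n, u ψ * j (1 - ψ.1.e n) = j (ψ.1.W n * (1 - ψ.1.e n))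
  dense : Dense (Algebra.adjoin ℂ (Set.range j ∪ Set.range u ∪ Set.range fun ψ => star (u ψ)) :
    Set B)

theorem mem_of_split {E : Type*} [NormedAddCommGroup E] [NormedSpace ℂ E] {G : Submodule ℂ E}
    (hG : IsClosed (G : Set E)) (S : E →L[ℂ] E) {x y : ℕ → E} {y₀ z : E} (hx : ∀ n, x n ∈ G)
    (hy : Tendsto y atTop (𝓝 y₀)) (hy₀ : S y₀ ∈ G) (hz : ∀ n, z = x n + S (y n)) : z ∈ G := by
  have h1 : Tendsto x atTop (𝓝 (z - S y₀)) := by
    have := (tendsto_const_nhds (x := z)).sub ((S.continuous.tendsto y₀).comp hy)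
    refine this.congr fun n => ?_
    rw [hz n]
    simp
  have h2 : z - S y₀ ∈ G := hG.mem_of_tendsto h1 (Eventually.of_forall hx)
  simpa using G.add_mem h2 hy₀

theorem rep_continuous {B' : Type*} [CStarAlgebra B'] (π : B →⋆ₐ[ℂ] B') : Continuous π :=
  AddMonoidHomClass.continuous_of_bound π 1 fun x => by
    rw [one_mul]; exact NonUnitalStarAlgHom.norm_apply_le π x

namespace Gen

variable (Γ : Gen U B)

theorem adjoin_ind {P : B → Prop} (h1 : ∀ d, P (Γ.j d)) (h2 : ∀ ψ, P (Γ.u ψ))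
    (h3 : ∀ ψ, P (star (Γ.u ψ))) (hadd : ∀ a b, P a → P b → P (a + b))
    (hmul : ∀ a b, P a → P b → P (a * b)) : ∀ a ∈ Algebra.adjoin ℂ
      (Set.range Γ.j ∪ Set.range Γ.u ∪ Set.range fun ψ => star (Γ.u ψ)), P a := by
  intro a ha
  induction ha using Algebra.adjoin_induction with
  | mem x hx =>
    rcases hx with (⟨d, rfl⟩ | ⟨ψ, rfl⟩) | ⟨ψ, rfl⟩
    exacts [h1 d, h2 ψ, h3 ψ]
  | algebraMap r =>
    have := h1 (algebraMap ℂ D r)
    rwa [AlgHomClass.commutes] at this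
  | add x y _ _ hx hy => exact hadd _ _ hx hy
  | mul x y _ _ hx hy => exact hmul _ _ hx hy

theorem ind {P : B → Prop} (hc : IsClosed {a | P a}) (h1 : ∀ d, P (Γ.j d)) (h2 : ∀ ψ, P (Γ.u ψ))
    (h3 : ∀ ψ, P (star (Γ.u ψ))) (hadd : ∀ a b, P a → P b → P (a + b))
    (hmul : ∀ a b, P a → P b → P (a * b)) (a : B) : P a :=
  closure_minimal (t := {a | P a}) (fun a ha => Γ.adjoin_ind h1 h2 h3 hadd hmul a ha) hc
    (Γ.dense a)

theorem F_mul_u (ψ : Γ.Ψ) (n : ℕ) : Γ.j (U.F (ψ.1.k n)) * Γ.u ψ = Γ.u ψ * Γ.j (ψ.1.e n) := by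
  have hp : IsStarProjection (Γ.j (1 - ψ.1.e n)) := (ψ.1.e_proj n).one_sub.map _
  have h1 : Γ.u ψ * Γ.j (1 - ψ.1.e n) * star (Γ.u ψ) = Γ.j (1 - U.F (ψ.1.k n)) := by
    calc Γ.u ψ * Γ.j (1 - ψ.1.e n) * star (Γ.u ψ)
        = (Γ.u ψ * Γ.j (1 - ψ.1.e n)) * star (Γ.u ψ * Γ.j (1 - ψ.1.e n)) := by
          rw [star_mul, hp.isSelfAdjoint.star_eq, mul_assoc, mul_assoc,
            ← mul_assoc (Γ.j _) (Γ.j _), hp.isIdempotentElem.eq]
      _ = _ := by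
          rw [Γ.u_coh, ← map_star, ← map_mul, Good.W_mul_one_sub, star_mul,
            (U.F_proj _).one_sub.isSelfAdjoint.star_eq, mul_assoc, ← mul_assoc (ψ.1.W n),
            (ψ.1.unit n).2, one_mul, (U.F_proj _).one_sub.isIdempotentElem.eq]
  have h2 := congrArg (· * Γ.u ψ) h1
  simp only [mul_assoc, (Γ.u_unit ψ).1, mul_one, map_sub, map_one, mul_sub, sub_mul, one_mul,
    sub_right_inj] at h2
  exact h2.symm

theorem u_split (ψ : Γ.Ψ) (n : ℕ) :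
    Γ.u ψ = Γ.j (ψ.1.W n * (1 - ψ.1.e n)) + Γ.u ψ * Γ.j (ψ.1.e n) := by
  rw [← Γ.u_coh, ← mul_add, ← map_add, sub_add_cancel, map_one, mul_one]

theorem star_u_split (ψ : Γ.Ψ) (n : ℕ) :
    star (Γ.u ψ) = Γ.j (star (ψ.1.W n * (1 - ψ.1.e n))) +
      star (Γ.u ψ) * Γ.j (U.F (ψ.1.k n)) := by
  have := congrArg star (Γ.u_split ψ n)
  rwa [← F_mul_u, star_add, ← map_star, star_mul (Γ.j _), ← map_star, U.star_F] at this

variable {H : Type*} [NormedAddCommGroup H] [InnerProductSpace ℂ H] [CompleteSpace H]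

theorem exists_fixed [Nontrivial H] {π : B →⋆ₐ[ℂ] (H →L[ℂ] H)} (hπ : Irr π) :
    ∃ ξ : H, ξ ≠ 0 ∧ ∀ k, π (Γ.j (U.F k)) ξ = ξ := by
  by_contra hno
  have h0 : ∀ (ψ : Γ.Ψ) (y : H), Tendsto (fun n => π (Γ.j (ψ.1.e n)) y) atTop (𝓝 0) := by
    intro ψ y
    obtain ⟨z, hz, hz'⟩ := dec_proj (fun n => π (Γ.j (ψ.1.e n)))
      (fun n => by rw [← map_star, ← map_star, ψ.1.star_e])
      (fun m n h => by rw [← map_mul, ← map_mul, ψ.1.e_mul_e h]) y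
    have h1 : π (Γ.u ψ) z = 0 := by
      by_contra h1
      refine hno ⟨_, h1, fun k => ?_⟩
      have h2 : π (Γ.j (U.F (ψ.1.k k))) (π (Γ.u ψ) z) = π (Γ.u ψ) z := by
        rw [← rep_mul, F_mul_u, rep_mul, hz']
      conv_lhs => rw [← h2, ← rep_mul, ← map_mul, U.F_mul_F' (ψ.1.le_k k), h2]
    have h2 : z = 0 := by
      rw [← norm_eq_zero, ← ContinuousLinearMap.norm_map_of_mem_unitary
        (Unitary.map_mem π (Γ.u_unit ψ)), h1, norm_zero]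
    rwa [h2] at hz
  have hirr : Irr (π.comp Γ.j) := by
    intro V hV hinv
    refine hπ V hV fun a => ?_
    refine Γ.ind (P := fun a => ∀ v ∈ V, π a v ∈ V) ?_ hinv ?_ ?_ ?_ ?_ a
    · simp only [Set.ofPred_forall]
      refine isClosed_iInter fun v => isClosed_iInter fun _ => ?_
      exact hV.preimage ((rep_continuous π).clm_apply continuous_const)
    · intro ψ v hv
      refine mem_of_split hV (π (Γ.u ψ)) (fun n => hinv (ψ.1.W n * (1 - ψ.1.e n)) v hv) (h0 ψ v)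
        (by simp) fun n => ?_
      conv_lhs => rw [Γ.u_split ψ n, map_add, map_mul π]
      rfl
    · intro ψ v hv
      refine mem_of_split hV (π (star (Γ.u ψ)))
        (fun n => hinv (star (ψ.1.W n * (1 - ψ.1.e n))) v hv)
        ((h0 ⟨U.base, Γ.base_mem⟩ v).comp ψ.1.tendsto_k) (by simp) fun n => ?_
      conv_lhs => rw [Γ.star_u_split ψ n, map_add, map_mul]
      simp only [Function.comp, U.base_e]
      rfl
    · intro a b ha hb v hv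
      rw [map_add]
      exact V.add_mem (ha v hv) (hb v hv)
    · intro a b ha hb v hv
      rw [rep_mul]
      exact ha _ (hb v hv)
  obtain ⟨χ, ξ, hξ0, hξ⟩ := U.key hirr
  replace hξ : ∀ n, π (Γ.j (χ.e n)) ξ = ξ := hξ
  by_cases hχ : χ ∈ Γ.Ψ
  · have h1 := h0 ⟨χ, hχ⟩ ξ
    simp only [hξ] at h1
    exact hξ0 (tendsto_nhds_unique tendsto_const_nhds h1)
  obtain ⟨ψ, hψ, hno'⟩ := Γ.maxl χ hχ
  refine hno' fun d => ?_
  have hξpos : 0 < ‖ξ‖ := norm_pos_iff.2 hξ0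
  rw [Metric.tendsto_atTop]
  intro ε hε
  obtain ⟨m, hm⟩ := ((Metric.tendsto_nhds.1 (h0 ⟨ψ, hψ⟩ (π (Γ.j d) ξ))) (ε * ‖ξ‖)
    (by positivity)).exists
  rw [dist_zero_right, ← rep_mul, ← map_mul] at hm
  obtain ⟨c, hc⟩ := χ.exc' (star (ψ.e m * d) * (ψ.e m * d))
  obtain ⟨N, hN⟩ := eventually_atTop.1 hc
  refine ⟨max m N, fun n hn => ?_⟩
  have h1 := hN n (le_of_max_le_right hn)
  have h2 : ‖π (Γ.j (ψ.e m * d)) ξ‖ ^ 2 = ‖c‖ * ‖ξ‖ ^ 2 := by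
    have h3 : ⟪π (Γ.j (ψ.e m * d)) ξ, π (Γ.j (ψ.e m * d)) ξ⟫_ℂ = c * ⟪ξ, ξ⟫_ℂ := by
      conv_lhs => rw [← hξ n, ← rep_mul, ← map_mul, inner_rep, ← map_star, ← map_mul, star_mul,
        χ.star_e, mul_assoc, ← mul_assoc (star _), ← mul_assoc, h1, map_smul, map_smul]
      rw [_root_.smul_apply, hξ, inner_smul_right]
    have h4 := congrArg norm h3
    rwa [norm_mul, inner_self_eq_norm_sq_to_K, inner_self_eq_norm_sq_to_K, norm_pow, norm_pow,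
      RCLike.norm_ofReal, RCLike.norm_ofReal, abs_norm, abs_norm] at h4
  have h3 : ‖Γ.j (ψ.e m * d * χ.e n)‖ ^ 2 ≤ ‖c‖ := by
    rw [sq, ← CStarRing.norm_star_mul_self, ← map_star, ← map_mul, star_mul, χ.star_e, mul_assoc,
      ← mul_assoc (star _), ← mul_assoc, h1, map_smul, norm_smul]
    exact mul_le_of_le_one_right (norm_nonneg _) ((χ.e_proj n).map Γ.j).norm_le
  have h4 : ‖Γ.j (ψ.e n * d * χ.e n)‖ ≤ ‖Γ.j (ψ.e m * d * χ.e n)‖ := by
    rw [← ψ.e_mul_e (le_of_max_le_left hn), mul_assoc, mul_assoc, map_mul, ← mul_assoc]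
    exact (norm_mul_le _ _).trans
      (mul_le_of_le_one_left (norm_nonneg _) ((ψ.e_proj n).map Γ.j).norm_le)
  have h5 : ‖c‖ < ε ^ 2 := by
    have h6 : ‖π (Γ.j (ψ.e m * d)) ξ‖ ^ 2 < (ε * ‖ξ‖) ^ 2 :=
      pow_lt_pow_left₀ hm (norm_nonneg _) two_ne_zero
    rw [h2, mul_pow] at h6
    exact lt_of_mul_lt_mul_right h6 (by positivity)
  rw [dist_zero_right, norm_norm]
  exact h4.trans_lt (lt_of_pow_lt_pow_left₀ 2 hε.le (h3.trans_lt h5))

/-- the coefficient of the limit -/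
def cf (ψ χ : Γ.Ψ) (d : D) : ℂ := by
  classical exact if ψ = χ then (ψ.1.exc' d).choose else 0

theorem fix_xi {π : B →⋆ₐ[ℂ] (H →L[ℂ] H)} {ξ : H} (hξ : ∀ k, π (Γ.j (U.F k)) ξ = ξ)
    (ψ : Γ.Ψ) (n : ℕ) : π (Γ.j (ψ.1.e n)) (π (star (Γ.u ψ)) ξ) = π (star (Γ.u ψ)) ξ := by
  have h := congrArg star (Γ.F_mul_u ψ n)
  rw [star_mul, star_mul, ← map_star, ← map_star, U.star_F, ψ.1.star_e] at h
  rw [← rep_mul, ← h, rep_mul, hξ]

theorem tendsto_e {π : B →⋆ₐ[ℂ] (H →L[ℂ] H)} {ξ : H} (hξ : ∀ k, π (Γ.j (U.F k)) ξ = ξ)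
    (ψ χ : Γ.Ψ) (d : D) :
    Tendsto (fun n => π (Γ.j (ψ.1.e n)) (π (Γ.j d) (π (star (Γ.u χ)) ξ))) atTop
      (𝓝 (Γ.cf ψ χ d • π (star (Γ.u ψ)) ξ)) := by
  have h1 : ∀ n, π (Γ.j (ψ.1.e n)) (π (Γ.j d) (π (star (Γ.u χ)) ξ)) =
      π (Γ.j (ψ.1.e n * d * χ.1.e n)) (π (star (Γ.u χ)) ξ) := by
    intro n
    rw [map_mul Γ.j, map_mul Γ.j, rep_mul, rep_mul, Γ.fix_xi hξ]
  simp only [h1]
  by_cases h : ψ = χ
  · subst h
    rw [cf, if_pos rfl]
    refine tendsto_const_nhds.congr' ?_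
    filter_upwards [(ψ.1.exc' d).choose_spec] with n hn
    rw [hn, map_smul, map_smul, _root_.smul_apply, Γ.fix_xi hξ]
  · rw [cf, if_neg h, zero_smul, tendsto_zero_iff_norm_tendsto_zero]
    have h2 := (Γ.pair ψ.2 χ.2 (fun h' => h (Subtype.ext h')) d).mul_const
      ‖π (star (Γ.u χ)) ξ‖
    rw [zero_mul] at h2
    refine squeeze_zero (fun _ => norm_nonneg _) (fun n => ?_) h2
    exact (ContinuousLinearMap.le_opNorm _ _).trans (mul_le_mul_of_nonneg_right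
      (NonUnitalStarAlgHom.norm_apply_le π _) (norm_nonneg _))

theorem inner_xi {π : B →⋆ₐ[ℂ] (H →L[ℂ] H)} {ξ : H} (hξ : ∀ k, π (Γ.j (U.F k)) ξ = ξ)
    (hξ1 : ‖ξ‖ = 1) (ψ χ : Γ.Ψ) (d d' : D) :
    ⟪π (Γ.j d) (π (star (Γ.u ψ)) ξ), π (Γ.j d') (π (star (Γ.u χ)) ξ)⟫_ℂ =
      Γ.cf ψ χ (star d * d') := by
  rw [inner_rep, ← map_star, ← map_mul]
  have h1 := (tendsto_const_nhds (x := π (star (Γ.u ψ)) ξ)).inner (𝕜 := ℂ)
    (Γ.tendsto_e hξ ψ χ (star d * d'))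
  have h2 : ‖π (star (Γ.u ψ)) ξ‖ = 1 := by
    rw [ContinuousLinearMap.norm_map_of_mem_unitary
      (Unitary.map_mem π (Unitary.star_mem (Γ.u_unit ψ))), hξ1]
  rw [inner_smul_right, inner_self_eq_norm_sq_to_K, h2] at h1
  simp only [RCLike.ofReal_one, one_pow, mul_one] at h1
  refine tendsto_nhds_unique (tendsto_const_nhds.congr fun n => ?_) h1
  conv_lhs => rw [← Γ.fix_xi hξ ψ n, inner_rep, ← map_star, ψ.1.star_e, rep_mul]

theorem norm_eq {H' : Type*} [NormedAddCommGroup H'] [InnerProductSpace ℂ H'] [CompleteSpace H']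
    {π : B →⋆ₐ[ℂ] (H →L[ℂ] H)} {π' : B →⋆ₐ[ℂ] (H' →L[ℂ] H')} {ξ : H} {ξ' : H'}
    (hξ : ∀ k, π (Γ.j (U.F k)) ξ = ξ) (hξ1 : ‖ξ‖ = 1)
    (hξ' : ∀ k, π' (Γ.j (U.F k)) ξ' = ξ') (hξ1' : ‖ξ'‖ = 1) (a : B) :
    ‖π' a ξ'‖ = ‖π a ξ‖ := by
  let T : B → (H × H' →L[ℂ] H × H') := fun a => (π a).prodMap (π' a)
  have hT : ∀ a p, T a p = (π a p.1, π' a p.2) := fun a p => rfl
  have hTmul : ∀ a b p, T (a * b) p = T a (T b p) := fun a b p => by
    simp only [hT, rep_mul]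
  have hTadd : ∀ a b p, T (a + b) p = T a p + T b p := fun a b p => by
    simp only [hT, map_add, _root_.add_apply, Prod.mk_add_mk]
  let S : Set (H × H') := {p | ∃ d ψ, p = T (Γ.j d) (T (star (Γ.u ψ)) (ξ, ξ'))}
  let G := (Submodule.span ℂ S).topologicalClosure
  have hG : IsClosed (G : Set (H × H')) := Submodule.isClosed_topologicalClosure _
  have hS : ∀ d ψ, T (Γ.j d) (T (star (Γ.u ψ)) (ξ, ξ')) ∈ G := fun d ψ =>
    Submodule.le_topologicalClosure _ (Submodule.subset_span ⟨d, ψ, rfl⟩)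
  have hT1 : ∀ p, T 1 p = p := fun p => by simp [hT]
  have hS1 : ∀ ψ, T (star (Γ.u ψ)) (ξ, ξ') ∈ G := fun ψ => by
    have := hS 1 ψ
    rwa [map_one, hT1] at this
  have hb : T (star (Γ.u ⟨U.base, Γ.base_mem⟩)) (ξ, ξ') = (ξ, ξ') := by
    rw [Γ.u_base, star_one, hT1]
  have hS0 : (ξ, ξ') ∈ G := hb ▸ hS1 _
  have hred : ∀ a, (∀ d ψ, T a (T (Γ.j d) (T (star (Γ.u ψ)) (ξ, ξ'))) ∈ G) →
      ∀ p ∈ G, T a p ∈ G := by
    intro a ha
    refine maps_closure _ _ fun p hp => ?_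
    induction hp using Submodule.span_induction with
    | mem x hx => obtain ⟨d, ψ, rfl⟩ := hx; exact ha d ψ
    | zero => rw [map_zero]; exact G.zero_mem
    | add x y _ _ hx hy => rw [map_add]; exact G.add_mem hx hy
    | smul c x _ hx => rw [map_smul]; exact G.smul_mem c hx
  have hj : ∀ d, ∀ p ∈ G, T (Γ.j d) p ∈ G := by
    intro d
    refine hred _ fun d' ψ => ?_
    rw [← hTmul, ← map_mul]
    exact hS _ _
  have hlim : ∀ (ψ χ : Γ.Ψ) d,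
      Tendsto (fun n => T (Γ.j (ψ.1.e n)) (T (Γ.j d) (T (star (Γ.u χ)) (ξ, ξ')))) atTop
        (𝓝 (Γ.cf ψ χ d • T (star (Γ.u ψ)) (ξ, ξ'))) := fun ψ χ d =>
    (Γ.tendsto_e hξ ψ χ d).prodMk_nhds (Γ.tendsto_e hξ' ψ χ d)
  have hinv : ∀ a, ∀ p ∈ G, T a p ∈ G := by
    intro a
    refine Γ.ind (P := fun a => ∀ p ∈ G, T a p ∈ G) ?_ hj ?_ ?_ ?_ ?_ a
    · simp only [Set.ofPred_forall]
      refine isClosed_iInter fun v => isClosed_iInter fun _ => ?_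
      exact hG.preimage (((rep_continuous π).clm_apply continuous_const).prodMk
        ((rep_continuous π').clm_apply continuous_const))
    · intro ψ
      refine hred _ fun d χ => ?_
      refine mem_of_split hG (T (Γ.u ψ)) (fun n => hj (ψ.1.W n * (1 - ψ.1.e n)) _ (hS d χ))
        (hlim ψ χ d) ?_ fun n => ?_
      · rw [map_smul, ← hTmul, (Γ.u_unit ψ).2, hT1]
        exact G.smul_mem _ hS0
      · conv_lhs => rw [Γ.u_split ψ n, hTadd, hTmul]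
    · intro ψ
      refine hred _ fun d χ => ?_
      refine mem_of_split hG (T (star (Γ.u ψ)))
        (fun n => hj (star (ψ.1.W n * (1 - ψ.1.e n))) _ (hS d χ))
        ((hlim ⟨U.base, Γ.base_mem⟩ χ d).comp ψ.1.tendsto_k) ?_ fun n => ?_
      · rw [map_smul, hb]
        exact G.smul_mem _ (hS1 ψ)
      · conv_lhs => rw [Γ.star_u_split ψ n, hTadd, hTmul]
        simp only [Function.comp, U.base_e]
    · intro a b ha hb v hv
      rw [hTadd]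
      exact G.add_mem (ha v hv) (hb v hv)
    · intro a b ha hb v hv
      rw [hTmul]
      exact ha _ (hb v hv)
  have hinner : ∀ p ∈ Submodule.span ℂ S, ∀ q ∈ Submodule.span ℂ S,
      ⟪p.2, q.2⟫_ℂ = ⟪p.1, q.1⟫_ℂ := by
    intro p hp q hq
    induction hp, hq using Submodule.span_induction₂ with
    | mem_mem x y hx hy =>
      obtain ⟨d, ψ, rfl⟩ := hx
      obtain ⟨d', ψ', rfl⟩ := hy
      simp only [hT]
      rw [Γ.inner_xi hξ hξ1, Γ.inner_xi hξ' hξ1']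
    | zero_left => simp
    | zero_right => simp
    | add_left x y z _ _ _ h1 h2 => simp [h1, h2]
    | add_right x y z _ _ _ h1 h2 => simp [h1, h2]
    | smul_left r x y _ _ h => simp [h]
    | smul_right r x y _ _ h => simp [h]
  have hnorm : ∀ p ∈ G, ‖p.2‖ = ‖p.1‖ := by
    intro p hp
    refine closure_minimal (t := {p : H × H' | ‖p.2‖ = ‖p.1‖}) (fun p hp => ?_)
      (isClosed_eq (by fun_prop) (by fun_prop)) hp
    change ‖p.2‖ = ‖p.1‖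
    rw [@norm_eq_sqrt_re_inner ℂ, @norm_eq_sqrt_re_inner ℂ, hinner p hp p hp]
  exact hnorm _ (hinv a _ hS0)

include Γ in
theorem unique {H' : Type*} [NormedAddCommGroup H'] [InnerProductSpace ℂ H'] [CompleteSpace H']
    [Nontrivial H] [Nontrivial H']
    {π : B →⋆ₐ[ℂ] (H →L[ℂ] H)} {π' : B →⋆ₐ[ℂ] (H' →L[ℂ] H')} (hπ : Irr π) (hπ' : Irr π') :
    ∃ V : H ≃ₗᵢ[ℂ] H', ∀ a v, V (π a v) = π' a (V v) := by
  obtain ⟨ξ, h0, hξ⟩ := Γ.exists_fixed hπ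
  obtain ⟨ξ', h0', hξ'⟩ := Γ.exists_fixed hπ'
  have h1 : ‖(‖ξ‖⁻¹ : ℂ) • ξ‖ = 1 := norm_smul_inv_norm h0
  refine unitary_of_norm_eq hπ hπ' (ξ := (‖ξ‖⁻¹ : ℂ) • ξ) (ξ' := (‖ξ'‖⁻¹ : ℂ) • ξ') ?_
    (Γ.norm_eq (fun k => by rw [map_smul, hξ]) h1 (fun k => by rw [map_smul, hξ'])
      (norm_smul_inv_norm h0'))
  intro h
  rw [h, norm_zero] at h1
  exact zero_ne_one h1

end Gen

end Crest.Agent.R120
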